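import Vale.Agent.P122R.Base

/-!
Aff: affine changes of variables.  With `g' s = g (m + l * s)`:
`‖TT κ g (r, t)‖ = |l| * ‖TT κ' g' (lam * r, l * t)‖` (`TT_eq`, `integral_add_left_eq_self`,
`Measure.integral_comp_mul_left`, `ex_add`, `norm_ex`), `Np g' = |l|⁻¹ Np g`, and scaling in `r` and `t`
of the lower integral (`lintegral_prod`, `Real.map_volume_mul_left`, `lintegral_map`).
`Str.union`: split `g` by indicators, `P117.inv_add`, `Kr.int`, `(x + y) ^ p ≤ 2 ^ p (x ^ p + y ^ p)`.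
`str_null`: the function under `𝓕⁻` vanishes a.e.
-/

open MeasureTheory Set Real Filter
open scoped FourierTransform ENNReal ComplexConjugate Topology

namespace Vale.Agent.P122R

open Vale.Agent.P117 (Np pt rho)
open Vale.Agent.P122 hiding E3 rot

variable {P P1 P2 : ℝ → ℝ} {q M : ℝ}

theorem raff_mul (f : ℝ → ℝ≥0∞) {a : ℝ} (ha : a ≠ 0) :
    ∫⁻ x, f (a * x) = ENNReal.ofReal |a⁻¹| * ∫⁻ x, f x := by
  have h := lintegral_map_equiv (μ := volume) f (Homeomorph.mulLeft₀ a ha).toMeasurableEquiv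
  have e : Measure.map (Homeomorph.mulLeft₀ a ha).toMeasurableEquiv (volume : Measure ℝ) =
      ENNReal.ofReal |a⁻¹| • volume := Real.map_volume_mul_left ha
  rw [e, lintegral_smul_measure] at h
  exact h.symm

theorem raff_prod {G : ℝ × ℝ → ℝ≥0∞} (hG : Measurable G) {a b : ℝ} (ha : a ≠ 0) (hb : b ≠ 0) :
    ∫⁻ z : ℝ × ℝ, G (a * z.1, b * z.2) =
      ENNReal.ofReal |a⁻¹| * (ENNReal.ofReal |b⁻¹| * ∫⁻ z, G z) := by
  have h1 : Measurable fun z : ℝ × ℝ => G (a * z.1, b * z.2) :=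
    hG.comp ((measurable_fst.const_mul a).prodMk (measurable_snd.const_mul b))
  rw [Measure.volume_eq_prod, lintegral_prod _ h1.aemeasurable, lintegral_prod _ hG.aemeasurable]
  have h2 : ∀ x, ∫⁻ y, G (a * x, b * y) = ENNReal.ofReal |b⁻¹| * ∫⁻ y, G (a * x, y) := fun x =>
    raff_mul (fun y => G (a * x, y)) hb
  simp only [h2]
  rw [lintegral_const_mul' _ _ ENNReal.ofReal_ne_top, raff_mul (fun x => ∫⁻ y, G (x, y)) ha,
    mul_left_comm]

theorem raff_add (x y : ℝ≥0∞) {p : ℝ} (hp : 0 < p) : (x + y) ^ p ≤ 2 ^ p * (x ^ p + y ^ p) := by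
  rcases le_total x y with h | h
  · calc (x + y) ^ p ≤ (2 * y) ^ p := by
          rw [two_mul]
          gcongr
      _ ≤ _ := by
          rw [ENNReal.mul_rpow_of_nonneg _ _ hp.le]
          gcongr
          exact le_add_self
  · calc (x + y) ^ p ≤ (2 * x) ^ p := by
          rw [two_mul]
          gcongr
      _ ≤ _ := by
          rw [ENNReal.mul_rpow_of_nonneg _ _ hp.le]
          gcongr
          exact le_self_add

theorem raff_ind (T : Set ℝ) (g : ℝ → ℂ) {p : ℝ} (hp : 0 < p) :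
    Np volume p (T.indicator g) ≤ Np volume p g :=
  lintegral_mono fun x => ENNReal.rpow_le_rpow (enorm_indicator_le_enorm_self g x) hp.le


theorem aff {p C lam m l : ℝ} {κ κ' : ℝ → ℝ → ℂ} (hp : 0 < p) (hlam : 0 < lam) (hl : l ≠ 0)
    (hκ : Kr κ') (e : ∀ r, ∀ s ∈ Icc (0 : ℝ) 1, κ r (m + l * s) = κ' (lam * r) s)
    (h : Str p κ' (Icc 0 1) C) :
    Str p κ ((fun s => m + l * s) '' Icc 0 1) (C * |l| ^ (p - 2) / lam ^ 2) := by
  intro g hg hi hv
  set g' : ℝ → ℂ := fun s => g (m + l * s) with hg'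
  have m1 : Measurable g' := hg.comp ((measurable_id.const_mul l).const_add m)
  have i1 : Integrable g' := (hi.comp_add_left m).comp_mul_left' hl
  have v1 : ∀ s, s ∉ Icc (0 : ℝ) 1 → g' s = 0 := fun s hs => hv _ (by
    rintro ⟨s', hs', e'⟩
    exact hs (mul_left_cancel₀ hl (add_left_cancel e') ▸ hs'))
  have H := h g' m1 i1 v1
  have hN : Np volume p g' = ENNReal.ofReal |l⁻¹| * Np volume p g := by
    unfold Np
    rw [← lintegral_add_left_eq_self (fun x => ‖g x‖ₑ ^ p) m]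
    exact raff_mul (fun x => ‖g (m + x)‖ₑ ^ p) hl
  have hT : ∀ z : ℝ × ℝ,
      ‖TT κ g z‖ₑ = ENNReal.ofReal |l| * ‖TT κ' g' (lam * z.1, l * z.2)‖ₑ := by
    intro z
    have e1 := Measure.integral_comp_mul_left
      (fun s => ex (2 * π * ((m + s) * z.2)) * (κ z.1 (m + s) * g (m + s))) l
    rw [integral_add_left_eq_self (fun s => ex (2 * π * (s * z.2)) * (κ z.1 s * g s)) m,
      ← TT_eq] at e1
    have e2 : ∫ s, ex (2 * π * ((m + l * s) * z.2)) * (κ z.1 (m + l * s) * g (m + l * s)) =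
        ex (2 * π * (m * z.2)) * TT κ' g' (lam * z.1, l * z.2) := by
      rw [TT_eq, ← integral_const_mul]
      refine integral_congr_ae (Eventually.of_forall fun s => ?_)
      have e3 : 2 * π * ((m + l * s) * z.2) = 2 * π * (m * z.2) + 2 * π * (s * (l * z.2)) := by
        ring
      by_cases hs : s ∈ Icc (0 : ℝ) 1
      · simp only [e3, ex_add, e _ s hs, hg', mul_assoc]
      · have := v1 s hs
        simp only [hg'] at this
        simp only [hg', this, mul_zero]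
    have e4 := congrArg norm (e2.symm.trans e1)
    rw [norm_mul, norm_ex, one_mul, norm_smul, Real.norm_eq_abs, abs_abs, abs_inv] at e4
    rw [← ofReal_norm, ← ofReal_norm, ← ENNReal.ofReal_mul (abs_nonneg _), e4,
      mul_inv_cancel_left₀ (abs_ne_zero.2 hl)]
  set G : ℝ × ℝ → ℝ≥0∞ := fun w => ENNReal.ofReal w.1 * ‖TT κ' g' w‖ₑ ^ p with hG
  have mG : Measurable G :=
    measurable_fst.ennreal_ofReal.mul ((measurable_TT hκ.meas m1).enorm.pow_const p)
  have hl0 : 0 < |l| := abs_pos.2 hl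
  have e5 : ∀ z : ℝ × ℝ, ENNReal.ofReal z.1 * ‖TT κ g z‖ₑ ^ p =
      ENNReal.ofReal (lam⁻¹ * |l| ^ p) * G (lam * z.1, l * z.2) := by
    intro z
    have e6 : ENNReal.ofReal z.1 = ENNReal.ofReal lam⁻¹ * ENNReal.ofReal (lam * z.1) := by
      rw [← ENNReal.ofReal_mul (by positivity), inv_mul_cancel_left₀ hlam.ne']
    rw [hT, ENNReal.mul_rpow_of_nonneg _ _ hp.le, ENNReal.ofReal_rpow_of_pos hl0,
      ENNReal.ofReal_mul (by positivity), e6]
    simp only [hG]
    ring
  simp_rw [e5]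
  rw [lintegral_const_mul' _ _ ENNReal.ofReal_ne_top, raff_prod mG hlam.ne' hl]
  have e7 : C * |l| ^ (p - 2) / lam ^ 2 =
      C * (lam⁻¹ * |l| ^ p * (|lam⁻¹| * (|l⁻¹| * |l⁻¹|))) := by
    rw [Real.rpow_sub hl0, abs_inv, abs_inv, abs_of_pos hlam, Real.rpow_two]
    field_simp
  rw [e7, ENNReal.ofReal_mul' (p := C) (by positivity), ENNReal.ofReal_mul (p := lam⁻¹ * |l| ^ p)
    (by positivity), ENNReal.ofReal_mul (abs_nonneg _), ENNReal.ofReal_mul (abs_nonneg _)]
  calc _ ≤ ENNReal.ofReal (lam⁻¹ * |l| ^ p) * (ENNReal.ofReal |lam⁻¹| * (ENNReal.ofReal |l⁻¹| *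
        (ENNReal.ofReal C * (ENNReal.ofReal |l⁻¹| * Np volume p g)))) := by
        rw [← hN]
        gcongr
    _ = _ := by ring

theorem Str.union {p C C' : ℝ} {κ : ℝ → ℝ → ℂ} {S S' : Set ℝ} (hp : 0 < p) (hκ : Kr κ)
    (hS : MeasurableSet S) (hC : 0 ≤ C) (hC' : 0 ≤ C') (h : Str p κ S C) (h' : Str p κ S' C') :
    Str p κ (S ∪ S') (2 ^ p * (C + C')) := by
  intro g hg hi hv
  have m1 := hg.indicator hS
  have m2 := hg.indicator hS.compl
  have i1 := hi.indicator hS
  have i2 := hi.indicator hS.compl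
  have H1 := (h _ m1 i1 fun s hs => indicator_of_notMem hs g).trans
    (mul_le_mul_right (raff_ind S g hp) _)
  have H2 := (h' _ m2 i2 fun s hs => by
    by_cases h1 : s ∈ S
    · exact indicator_of_notMem (s := Sᶜ) (fun h2 => h2 h1) g
    · rw [indicator_of_mem h1]
      exact hv s fun h2 => h2.elim h1 hs).trans (mul_le_mul_right (raff_ind Sᶜ g hp) _)
  have e : ∀ z, TT κ g z = TT κ (S.indicator g) z + TT κ (Sᶜ.indicator g) z := fun z => by
    unfold TT
    rw [← P117.inv_add (hκ.int i1 _) (hκ.int i2 _)]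
    simp only [← mul_add, indicator_self_add_compl_apply]
  have m3 : Measurable fun z : ℝ × ℝ => ENNReal.ofReal z.1 * ‖TT κ (S.indicator g) z‖ₑ ^ p :=
    measurable_fst.ennreal_ofReal.mul ((measurable_TT hκ.meas m1).enorm.pow_const p)
  have e2 : (2 : ℝ≥0∞) ^ p = ENNReal.ofReal (2 ^ p) := by
    rw [← ENNReal.ofReal_rpow_of_pos two_pos, ENNReal.ofReal_ofNat]
  calc _ ≤ ∫⁻ z : ℝ × ℝ, 2 ^ p * (ENNReal.ofReal z.1 * ‖TT κ (S.indicator g) z‖ₑ ^ p +
        ENNReal.ofReal z.1 * ‖TT κ (Sᶜ.indicator g) z‖ₑ ^ p) := by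
        refine lintegral_mono fun z => ?_
        rw [← mul_add, mul_left_comm, e z]
        exact mul_le_mul_right
          ((ENNReal.rpow_le_rpow (enorm_add_le _ _) hp.le).trans (raff_add _ _ hp)) _
    _ ≤ _ := by
        rw [lintegral_const_mul' _ _ (e2 ▸ ENNReal.ofReal_ne_top), lintegral_add_left m3,
          ENNReal.ofReal_mul (by positivity), ← e2, ENNReal.ofReal_add hC hC', mul_assoc, add_mul]
        gcongr

theorem str_null {p : ℝ} (hp : 0 < p) (κ : ℝ → ℝ → ℂ) {S : Set ℝ} (hS : volume S = 0) :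
    Str p κ S 0 := by
  intro g _ _ hv
  have e : ∀ z, TT κ g z = 0 := fun z => by
    rw [TT_eq]
    refine integral_eq_zero_of_ae ?_
    filter_upwards [measure_eq_zero_iff_ae_notMem.1 hS] with s hs
    simp [hv s hs]
  simp [e, ENNReal.zero_rpow_of_pos hp]

end Vale.Agent.P122R
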