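import Vale.Agent.P122R.Stmt
import Vale.Agent.P122.Main

/-! Internal definitions for P122R. FROZEN. See skeleton/P122R/GUIDE.md. -/

open MeasureTheory Set Real
open scoped FourierTransform ENNReal ComplexConjugate

noncomputable section

namespace Vale.Agent.P122R

open Vale.Agent.P117 (Np pt rho)
open Vale.Agent.P122 hiding E3 rot

/-- normalised increasing profiles with their first two derivatives -/
structure Pf (P P1 P2 : ℝ → ℝ) (q M : ℝ) : Prop where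
  meas : Measurable P
  q0 : 0 < q
  M0 : 0 < M
  d1 : ∀ s ∈ Icc (0 : ℝ) 1, HasDerivAt P (P1 s) s
  d2 : ∀ s ∈ Icc (0 : ℝ) 1, HasDerivAt P1 (P2 s) s
  p0 : ∀ s ∈ Icc (0 : ℝ) 1, 0 ≤ P s
  p1 : ∀ s ∈ Icc (0 : ℝ) 1, P s ≤ 1
  inc : ∀ s ∈ Icc (0 : ℝ) 1, 0 ≤ P1 s
  bd : ∀ s ∈ Icc (0 : ℝ) 1, |P2 s| ≤ M
  cur : ∀ s ∈ Icc (0 : ℝ) 1, q ≤ P1 s ^ 2 - 2 * P s * P2 s

open Classical in
/-- a kernel composed with the profile -/
def cp (κ : ℝ → ℝ → ℂ) (P : ℝ → ℝ) (r s : ℝ) : ℂ := if s ∈ Icc (0 : ℝ) 1 then κ r (P s) else 0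

/-- the Bessel kernel of a profile -/
def kP (k : ℤ) (P : ℝ → ℝ) (r s : ℝ) : ℂ := bJ k (r * √(P s))

/-- the strong bound on an interval of heights -/
def Str (p : ℝ) (κ : ℝ → ℝ → ℂ) (S : Set ℝ) (C : ℝ) : Prop :=
  ∀ g : ℝ → ℂ, Measurable g → Integrable g → (∀ s, s ∉ S → g s = 0) →
    ∫⁻ z, ENNReal.ofReal z.1 * ‖TT κ g z‖ₑ ^ p ≤ ENNReal.ofReal C * Np volume p g

/-- positively curved profiles -/
structure Cur (P : ℝ → ℝ) (a b : ℝ) : Prop where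
  sm : ContDiff ℝ 2 P
  p0 : ∀ s ∈ Icc a b, 0 ≤ P s
  cur : ∀ s ∈ Icc a b, 2 * P s * deriv (deriv P) s < deriv P s ^ 2

/-- equivariance on the surface -/
def EqR (k : ℤ) (P : ℝ → ℝ) (a b : ℝ) (f : E3 → ℂ) : Prop :=
  ∀ θ : ℝ, ∀ s ∈ Icc a b, f (prm P (s, θ)) = ex (k * θ) * f (prm P (s, 0))

/-- the profile of the function -/
def gR (P : ℝ → ℝ) (a b : ℝ) (f : E3 → ℂ) : ℝ → ℂ :=
  (Icc a b).indicator fun s => f (prm P (s, 0)) * ((√(P s + deriv P s ^ 2 / 4) : ℝ) : ℂ)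

theorem cp_in {κ : ℝ → ℝ → ℂ} {P : ℝ → ℝ} (r : ℝ) {s : ℝ} (h : s ∈ Icc (0 : ℝ) 1) :
    cp κ P r s = κ r (P s) := if_pos h

theorem cp_out {κ : ℝ → ℝ → ℂ} {P : ℝ → ℝ} (r : ℝ) {s : ℝ} (h : s ∉ Icc (0 : ℝ) 1) :
    cp κ P r s = 0 := if_neg h

theorem kr_cp {κ : ℝ → ℝ → ℂ} {P : ℝ → ℝ} (hκ : Kr κ) (hP : Measurable P) : Kr (cp κ P) := by
  obtain ⟨B, hB⟩ := hκ.bdd
  refine ⟨Measurable.ite (p := fun z : ℝ × ℝ => z.2 ∈ Icc (0 : ℝ) 1)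
    (measurable_snd measurableSet_Icc)
    (hκ.meas.comp (measurable_fst.prodMk (hP.comp measurable_snd))) measurable_const,
    B, fun r s => ?_⟩
  by_cases h : s ∈ Icc (0 : ℝ) 1
  · rw [cp_in r h]
    exact hB _ _
  · rw [cp_out r h, norm_zero]
    exact (norm_nonneg _).trans (hB 0 0)

theorem rot_eq_rot : rot = Vale.Agent.P117.rot := rfl

end Vale.Agent.P122R
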