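import Vale.Agent.P122R.Geo

/-!
Conc: four point inequalities.  With `u x = √(P x - c)`, `F x = u x + m' / 2 * x ^ 2` has
`F' = P1 / (2 u) + m' x`, `F'' = -(P1 ^ 2 - 2 P2 u ^ 2) / (4 u ^ 3) + m'`; for `m' = m / (32 μ ^ 3)` this is
`≤ 0` since `u ≤ 2 μ`; `concaveOn_of_hasDerivWithinAt2_nonpos` (or `AntitoneOn.concaveOn_of_deriv`).
A concave `F` on `[s3, s4]` has `F s3 + F s4 ≤ F s1 + F s2` (`s1 = t s3 + (1 - t) s4`,
`s2 = (1 - t) s3 + t s4`), and `s3 ^ 2 + s4 ^ 2 - s1 ^ 2 - s2 ^ 2 = 2 (s1 s2 - s3 s4)`.  `four_mono`: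
`√(P - c') - √(P - c) = (c - c') / V`, `V = √(P - c') + √(P - c)` is concave (case `m' = 0`, `qlow`) and
positive, so `1 / V1 + 1 / V2 ≤ 1 / V3 + 1 / V4` (`V1 ≥ t V3 + (1 - t) V4`, convexity of the inverse).
-/

open MeasureTheory Set Real Filter
open scoped FourierTransform ENNReal ComplexConjugate Topology

namespace Vale.Agent.P122R

open Vale.Agent.P117 (Np pt rho)
open Vale.Agent.P122 hiding E3 rot

variable {P P1 P2 : ℝ → ℝ} {q M : ℝ}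

theorem rconc_cc (h : Pf P P1 P2 q M) {c k s3 s4 : ℝ} (h3 : 0 ≤ s3) (h4 : s4 ≤ 1)
    (hx : ∀ x ∈ Icc s3 s4, c < P x ∧
      k * (4 * √(P x - c) ^ 3) ≤ P1 x ^ 2 - 2 * P2 x * (P x - c)) :
    ConcaveOn ℝ (Icc s3 s4) fun x => √(P x - c) + k / 2 * x ^ 2 := by
  have sub : Icc s3 s4 ⊆ Icc 0 1 := Icc_subset_Icc h3 h4
  have du : ∀ x ∈ Icc s3 s4, HasDerivAt (fun x => √(P x - c)) (P1 x / (2 * √(P x - c))) x :=
    fun x hx' => ((h.d1 x (sub hx')).sub_const c).sqrt (sub_pos.2 (hx x hx').1).ne'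
  have d1 : ∀ x ∈ Icc s3 s4, HasDerivAt (fun x => √(P x - c) + k / 2 * x ^ 2)
      (P1 x / (2 * √(P x - c)) + k * x) x := fun x hx' => by
    have := (du x hx').add ((hasDerivAt_pow 2 x).const_mul (k / 2))
    refine this.congr_deriv ?_
    push_cast
    ring
  have d2 : ∀ x ∈ Icc s3 s4, HasDerivAt (fun x => P1 x / (2 * √(P x - c)) + k * x)
      ((P2 x * (2 * √(P x - c)) - P1 x * (2 * (P1 x / (2 * √(P x - c))))) / (2 * √(P x - c)) ^ 2 +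
        k * 1) x := fun x hx' => by
    have hp : 0 < √(P x - c) := Real.sqrt_pos.2 (sub_pos.2 (hx x hx').1)
    exact ((h.d2 x (sub hx')).div ((du x hx').const_mul 2) (by positivity)).add
      ((hasDerivAt_id x).const_mul k)
  refine concaveOn_of_hasDerivWithinAt2_nonpos (convex_Icc _ _)
    (fun x hx' => (d1 x hx').continuousAt.continuousWithinAt)
    (fun x hx' => (d1 x (interior_subset hx')).hasDerivWithinAt)
    (fun x hx' => (d2 x (interior_subset hx')).hasDerivWithinAt) fun x hx' => ?_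
  obtain ⟨k1, k2⟩ := hx x (interior_subset hx')
  have hp : 0 < √(P x - c) := Real.sqrt_pos.2 (sub_pos.2 k1)
  have hs : √(P x - c) ^ 2 = P x - c := Real.sq_sqrt (sub_pos.2 k1).le
  generalize √(P x - c) = u at *
  rw [← hs] at k2
  have e : (P2 x * (2 * u) - P1 x * (2 * (P1 x / (2 * u)))) / (2 * u) ^ 2 + k * 1 =
      (k * (4 * u ^ 3) - (P1 x ^ 2 - 2 * P2 x * u ^ 2)) / (4 * u ^ 3) := by
    field_simp
    ring
  rw [e]
  exact div_nonpos_of_nonpos_of_nonneg (sub_nonpos.2 k2) (by positivity)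

theorem rconc_t {s1 s2 s3 s4 : ℝ} (h31 : s3 ≤ s1) (h32 : s3 ≤ s2) (he : s1 + s2 = s3 + s4) :
    ∃ t : ℝ, 0 ≤ t ∧ t ≤ 1 ∧ s1 = t * s3 + (1 - t) * s4 ∧ s2 = (1 - t) * s3 + t * s4 := by
  rcases eq_or_lt_of_le (show s3 ≤ s4 by linarith) with h | h
  · exact ⟨0, le_rfl, zero_le_one, by linarith, by linarith⟩
  · have hp : 0 < s4 - s3 := sub_pos.2 h
    have e : (s4 - s1) / (s4 - s3) * (s4 - s3) = s4 - s1 := div_mul_cancel₀ _ hp.ne'
    exact ⟨(s4 - s1) / (s4 - s3), div_nonneg (by linarith) hp.le,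
      (div_le_one hp).2 (by linarith), by linarith, by linarith⟩

theorem rconc_inv {a b v t : ℝ} (ha : 0 < a) (hb : 0 < b) (t0 : 0 ≤ t) (t1 : t ≤ 1)
    (h : t * a + (1 - t) * b ≤ v) : v⁻¹ ≤ t * a⁻¹ + (1 - t) * b⁻¹ := by
  have hp : 0 < t * a + (1 - t) * b := by
    rcases le_total a b with h | h <;> nlinarith
  refine (inv_anti₀ hp h).trans ?_
  have e : t * a⁻¹ + (1 - t) * b⁻¹ = (t * b + (1 - t) * a) / (a * b) := by field_simp
  rw [e, inv_eq_one_div, div_le_div_iff₀ hp (by positivity)]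
  nlinarith [mul_nonneg (mul_nonneg t0 (sub_nonneg.2 t1)) (sq_nonneg (a - b))]

theorem four_pt (h : Pf P P1 P2 q M) {c m μ s1 s2 s3 s4 : ℝ} (hμ : 0 < μ) (hm : 0 ≤ m)
    (h3 : 0 ≤ s3) (h4 : s4 ≤ 1) (h31 : s3 ≤ s1) (h32 : s3 ≤ s2) (he : s1 + s2 = s3 + s4)
    (hx : ∀ x ∈ Icc s3 s4, c < P x ∧ √(P x - c) ≤ 2 * μ ∧
      m ≤ P1 x ^ 2 - 2 * P2 x * (P x - c)) :
    m / (32 * μ ^ 3) * (s1 * s2 - s3 * s4) ≤
      √(P s1 - c) + √(P s2 - c) - √(P s3 - c) - √(P s4 - c) := by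

  have hc := rconc_cc (k := m / (32 * μ ^ 3)) h h3 h4 (c := c) fun x hx' => by
    obtain ⟨k1, k2, k3⟩ := hx x hx'
    refine ⟨k1, le_trans ?_ k3⟩
    have k4 : √(P x - c) ^ 3 ≤ (2 * μ) ^ 3 := by gcongr
    calc _ ≤ m / (32 * μ ^ 3) * (4 * (2 * μ) ^ 3) := by gcongr
      _ = m := by field_simp; ring
  obtain ⟨t, t0, t1, e1, e2⟩ := rconc_t h31 h32 he
  have h34 : s3 ≤ s4 := by linarith
  have a1 := hc.2 (left_mem_Icc.2 h34) (right_mem_Icc.2 h34) t0 (sub_nonneg.2 t1) (by ring)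
  have a2 := hc.2 (left_mem_Icc.2 h34) (right_mem_Icc.2 h34) (sub_nonneg.2 t1) t0 (by ring)
  simp only [smul_eq_mul] at a1 a2
  rw [← e1] at a1
  rw [← e2] at a2
  have e : s3 ^ 2 + s4 ^ 2 - s1 ^ 2 - s2 ^ 2 = 2 * (s1 * s2 - s3 * s4) := by
    have : (s1 + s2) ^ 2 = (s3 + s4) ^ 2 := by rw [he]
    linarith
  have e' : m / (32 * μ ^ 3) * (s1 * s2 - s3 * s4) =
      m / (32 * μ ^ 3) / 2 * (s3 ^ 2 + s4 ^ 2 - s1 ^ 2 - s2 ^ 2) := by rw [e]; ring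
  rw [e']
  linarith

theorem four_mono (h : Pf P P1 P2 q M) {c c' s1 s2 s3 s4 : ℝ} (h0 : 0 ≤ c') (hc : c' ≤ c)
    (h3 : 0 ≤ s3) (h4 : s4 ≤ 1) (h31 : s3 ≤ s1) (h32 : s3 ≤ s2) (he : s1 + s2 = s3 + s4)
    (hx : ∀ x ∈ Icc s3 s4, c < P x) :
    √(P s1 - c') + √(P s2 - c') - √(P s3 - c') - √(P s4 - c') ≤
      √(P s1 - c) + √(P s2 - c) - √(P s3 - c) - √(P s4 - c) := by

  have sub : Icc s3 s4 ⊆ Icc 0 1 := Icc_subset_Icc h3 h4
  have cc : ∀ d, 0 ≤ d → d ≤ c → ConcaveOn ℝ (Icc s3 s4) fun x => √(P x - d) := fun d d0 dc => by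
    have := rconc_cc (k := 0) h h3 h4 (c := d) fun x hx' => by
      have k1 : d < P x := dc.trans_lt (hx x hx')
      refine ⟨k1, le_trans ?_ (h.qlow (sub hx') d0 k1)⟩
      rw [zero_mul]
      exact mul_nonneg h.q0.le (sub_pos.2 k1).le
    simpa using this
  have hV := (cc c' h0 hc).add (cc c (h0.trans hc) le_rfl)
  have pos : ∀ x ∈ Icc s3 s4, 0 < √(P x - c') + √(P x - c) := fun x hx' =>
    add_pos_of_nonneg_of_pos (Real.sqrt_nonneg _) (Real.sqrt_pos.2 (sub_pos.2 (hx x hx')))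
  have df : ∀ x ∈ Icc s3 s4,
      √(P x - c') = √(P x - c) + (c - c') * (√(P x - c') + √(P x - c))⁻¹ := fun x hx' => by
    have k1 := Real.mul_self_sqrt (sub_pos.2 (hx x hx')).le
    have k2 := Real.mul_self_sqrt (sub_pos.2 (hc.trans_lt (hx x hx'))).le
    rw [← sub_eq_iff_eq_add', ← div_eq_mul_inv, eq_div_iff (pos x hx').ne']
    linarith
  obtain ⟨t, t0, t1, e1, e2⟩ := rconc_t h31 h32 he
  have h34 : s3 ≤ s4 := by linarith
  have m3 := left_mem_Icc.2 h34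
  have m4 := right_mem_Icc.2 h34
  have a1 := hV.2 m3 m4 t0 (sub_nonneg.2 t1) (by ring)
  have a2 := hV.2 m4 m3 t0 (sub_nonneg.2 t1) (by ring)
  simp only [smul_eq_mul, Pi.add_apply] at a1 a2
  rw [← e1] at a1
  rw [add_comm (t * s4), ← e2] at a2
  have b1 := mul_le_mul_of_nonneg_left (rconc_inv (pos _ m3) (pos _ m4) t0 t1 a1)
    (sub_nonneg.2 hc)
  have b2 := mul_le_mul_of_nonneg_left (rconc_inv (pos _ m4) (pos _ m3) t0 t1 a2)
    (sub_nonneg.2 hc)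
  have f1 := df s1 ⟨h31, by linarith⟩
  have f2 := df s2 ⟨h32, by linarith⟩
  have f3 := df s3 m3
  have f4 := df s4 m4
  linarith

end Vale.Agent.P122R
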