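import Vale.Agent.P122R.Base

/-!
Split: normalisation.  `equator`: if `deriv P x ≤ 0` and `x < y ≤ b` then `deriv P y ≤ 0` (barrier
`B = 0` in `image_le_of_deriv_right_lt_deriv_boundary`: at a zero of `deriv P`, `2 P P'' < 0` and
`0 ≤ P` give `P'' < 0`).  Take `m = b` if `deriv P > 0` on `[a, b]`, else the infimum of the closed set
where `deriv P ≤ 0` (continuity gives `0 ≤ deriv P m` when `a < m`; state it so that `m = a` is allowed).
`pf_of`: `lam ^ 2 = 1 + max P`, `P1 s = l * deriv P (m + l s) / lam ^ 2`, `P2 s = l ^ 2 * P'' / lam ^ 2`;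
`q` and `M` from compactness (`IsCompact.exists_isMinOn`, `ContDiff.continuous_deriv`,
`ContDiff.iterate_deriv` or `contDiff_succ_iff_deriv`).
-/

open MeasureTheory Set Real Filter
open scoped FourierTransform ENNReal ComplexConjugate Topology

namespace Vale.Agent.P122R

open Vale.Agent.P117 (Np pt rho)
open Vale.Agent.P122 hiding E3 rot

variable {P P1 P2 : ℝ → ℝ} {q M : ℝ}

theorem Cur.d2 {a b : ℝ} (h : Cur P a b) : ContDiff ℝ 1 (deriv P) :=
  (contDiff_succ_iff_deriv.1 (show ContDiff ℝ (1 + 1) P from h.sm)).2.2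

theorem stay {a b x y : ℝ} (h : Cur P a b) (hx : a ≤ x) (h0 : deriv P x ≤ 0) (hy : y ∈ Icc x b) :
    deriv P y ≤ 0 := by
  have hd := h.d2.differentiable one_ne_zero
  refine image_le_of_deriv_right_lt_deriv_boundary (f := deriv P) (f' := deriv (deriv P))
    (B := fun _ => 0) (B' := fun _ => 0) hd.continuous.continuousOn
    (fun z _ => (hd z).hasDerivAt.hasDerivWithinAt) h0 (fun z => hasDerivAt_const z 0)
    (fun z hz e => ?_) hy
  have hz' : z ∈ Icc a b := ⟨hx.trans hz.1, hz.2.le⟩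
  have h1 := h.cur z hz'
  have h2 := h.p0 z hz'
  rw [e] at h1
  by_contra h3
  nlinarith [mul_nonneg h2 (not_lt.1 h3)]

theorem equator {a b : ℝ} (h : Cur P a b) (hab : a ≤ b) : ∃ m ∈ Icc a b,
    (a < m → ∀ s ∈ Icc a m, 0 ≤ deriv P s) ∧ (m < b → ∀ s ∈ Icc m b, deriv P s ≤ 0) := by
  have hc := h.d2.continuous
  by_cases hn : (Icc a b ∩ {s | deriv P s ≤ 0}).Nonempty
  · have hk : IsCompact (Icc a b ∩ {s | deriv P s ≤ 0}) :=
      isCompact_Icc.inter_right (isClosed_le hc continuous_const)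
    obtain ⟨m, hm, hl⟩ := hk.exists_isLeast hn
    refine ⟨m, hm.1, fun ham s hs => ?_, fun _ s hs => stay h hm.1.1 hm.2 hs⟩
    have h1 : Ico a m ⊆ {s | 0 ≤ deriv P s} := fun t ht => by
      by_contra h2
      exact absurd (hl ⟨⟨ht.1, ht.2.le.trans hm.1.2⟩, (not_le.1 h2 : deriv P t < 0).le⟩) (not_le.2 ht.2)
    have h2 := (isClosed_le continuous_const hc).closure_subset_iff.2 h1
    rw [closure_Ico ham.ne] at h2
    exact h2 hs
  · refine ⟨b, ⟨hab, le_rfl⟩, fun _ s hs => ?_, fun h => absurd h (lt_irrefl _)⟩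
    by_contra h2
    exact hn ⟨s, hs, (not_le.1 h2 : deriv P s < 0).le⟩

theorem pf_of {a b m l : ℝ} (h : Cur P a b) (hl : l ≠ 0)
    (hs : ∀ s ∈ Icc (0 : ℝ) 1, m + l * s ∈ Icc a b ∧ 0 ≤ l * deriv P (m + l * s)) :
    ∃ lam : ℝ, 0 < lam ∧ ∃ (Q1 Q2 : ℝ → ℝ) (q' M' : ℝ),
      Pf (fun s => P (m + l * s) / lam ^ 2) Q1 Q2 q' M' := by
  have hd1 := h.sm.differentiable two_ne_zero
  have hd2 := h.d2.differentiable one_ne_zero
  have c2 : Continuous (deriv (deriv P)) := h.d2.continuous_deriv le_rfl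
  have c1 := hd2.continuous
  have c0 := hd1.continuous
  have hA : ∀ s, HasDerivAt (fun s => m + l * s) l s := fun s => by
    simpa using ((hasDerivAt_id s).const_mul l).const_add m
  have ne : (Icc (0 : ℝ) 1).Nonempty := ⟨0, le_rfl, zero_le_one⟩
  obtain ⟨x, hx, hX⟩ := isCompact_Icc.exists_isMaxOn ne
    (f := fun s => P (m + l * s)) (by fun_prop)
  obtain ⟨y, hy, hY⟩ := isCompact_Icc.exists_isMinOn ne
    (f := fun s => deriv P (m + l * s) ^ 2 - 2 * P (m + l * s) * deriv (deriv P) (m + l * s))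
    (by fun_prop)
  obtain ⟨w, hw, hW⟩ := isCompact_Icc.exists_isMaxOn ne
    (f := fun s => |deriv (deriv P) (m + l * s)|) (by fun_prop)
  have hL : 0 < 1 + P (m + l * x) := by linarith [h.p0 _ (hs x hx).1]
  set L := 1 + P (m + l * x) with eL
  have hl2 : 0 < l ^ 2 := by positivity
  have hy0 := sub_pos.2 (h.cur _ (hs y hy).1)
  refine ⟨√L, Real.sqrt_pos.2 hL, fun s => deriv P (m + l * s) * l / L,
    fun s => deriv (deriv P) (m + l * s) * l * l / L,
    l ^ 2 / L ^ 2 * (deriv P (m + l * y) ^ 2 - 2 * P (m + l * y) * deriv (deriv P) (m + l * y)),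
    l ^ 2 / L * |deriv (deriv P) (m + l * w)| + 1, ?_⟩
  rw [Real.sq_sqrt hL.le]
  refine ⟨by fun_prop, by positivity, by positivity,
    fun s _ => ((hd1 _).hasDerivAt.comp s (hA s)).div_const L,
    fun s _ => (((hd2 _).hasDerivAt.comp s (hA s)).mul_const l).div_const L,
    fun s hs' => div_nonneg (h.p0 _ (hs s hs').1) hL.le, fun s hs' => ?_,
    fun s hs' => div_nonneg (by rw [mul_comm]; exact (hs s hs').2) hL.le, fun s hs' => ?_,
    fun s hs' => ?_⟩
  · rw [div_le_one hL]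
    linarith [show P (m + l * s) ≤ P (m + l * x) from hX hs']
  · have e : |deriv (deriv P) (m + l * s) * l * l / L| =
        l ^ 2 / L * |deriv (deriv P) (m + l * s)| := by
      rw [abs_div, mul_assoc, abs_mul, abs_mul_self, abs_of_pos hL]
      ring
    rw [e]
    linarith [mul_le_mul_of_nonneg_left (hW hs') (div_pos hl2 hL).le]
  · refine (mul_le_mul_of_nonneg_left (hY hs') (by positivity)).trans (le_of_eq ?_)
    field_simp

end Vale.Agent.P122R
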