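import Vale.Agent.P122R.Restr
import Vale.Agent.P122R.Aff
import Vale.Agent.P122R.Split

/-!
Core: general intervals.  `Kr (kP k P)` from `continuous_bJ`, `norm_bJ_le`.  If `b < a` or for a
degenerate half use `str_null`.  `equator`; the half `[a, m]` is the image of `[0, 1]` under
`s ↦ a + (m - a) s`, the half `[m, b]` under `s ↦ b + (m - b) s`; `pf_of`, `coreR`, `aff` with
`lam * r * √(P / lam ^ 2) = r * √P`; `Str.union`, `Icc_union_Icc_eq_Icc`.
-/

open MeasureTheory Set Real Filter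
open scoped FourierTransform ENNReal ComplexConjugate Topology

namespace Vale.Agent.P122R

open Vale.Agent.P117 (Np pt rho)
open Vale.Agent.P122 hiding E3 rot

variable {P P1 P2 : ℝ → ℝ} {q M : ℝ}

theorem rcore_kr (k : ℤ) (hP : Measurable P) : Kr (kP k P) :=
  ⟨(continuous_bJ k).measurable.comp (measurable_fst.mul (hP.comp measurable_snd).sqrt),
    7, fun _ _ => norm_bJ_le k _⟩

theorem rcore_half {a b m l p : ℝ} (h : Cur P a b) (h3 : 3 < p) (hl : l ≠ 0)
    (hs : ∀ s ∈ Icc (0 : ℝ) 1, m + l * s ∈ Icc a b ∧ 0 ≤ l * deriv P (m + l * s)) :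
    ∃ C : ℝ, 0 ≤ C ∧ ∀ k : ℤ, Str p (kP k P) ((fun s => m + l * s) '' Icc 0 1) C := by
  obtain ⟨lam, hlam, Q1, Q2, q', M', hf⟩ := pf_of h hl hs
  obtain ⟨C, hC, hk⟩ := coreR hf h3
  refine ⟨C * |l| ^ (p - 2) / lam ^ 2, by positivity, fun k =>
    aff (by linarith) hlam hl (rcore_kr k hf.meas) (fun r s _ => ?_) (hk k)⟩
  simp only [kP]
  rw [Real.sqrt_div' _ (sq_nonneg lam), Real.sqrt_sq hlam.le]
  congr 1
  field_simp

theorem rcore_null {p : ℝ} (h3 : 3 < p) {x y : ℝ} (h : y ≤ x) :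
    ∃ C : ℝ, 0 ≤ C ∧ ∀ k : ℤ, Str p (kP k P) (Icc x y) C :=
  ⟨0, le_rfl, fun _ => str_null (by linarith) _ (by
    rw [Real.volume_Icc, ENNReal.ofReal_of_nonpos (by linarith)])⟩

theorem coreG {a b p : ℝ} (h : Cur P a b) (h3 : 3 < p) : ∃ C : ℝ, 0 ≤ C ∧
    ∀ k : ℤ, Str p (kP k P) (Icc a b) C := by
  rcases le_total b a with hab | hab
  · exact rcore_null h3 hab
  obtain ⟨m, hm, h1, h2⟩ := equator h hab
  have e1 : ∃ C : ℝ, 0 ≤ C ∧ ∀ k : ℤ, Str p (kP k P) (Icc a m) C := by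
    rcases le_or_gt m a with h4 | h4
    · exact rcore_null h3 h4
    have h5 : ∀ s ∈ Icc (0 : ℝ) 1, a + (m - a) * s ∈ Icc a m := fun s hs =>
      ⟨by nlinarith [hs.1], by nlinarith [hs.2]⟩
    have e : (fun s => a + (m - a) * s) '' Icc 0 1 = Icc a m := by
      refine Subset.antisymm (image_subset_iff.2 h5) fun x hx => ⟨(x - a) / (m - a), ⟨?_, ?_⟩, ?_⟩
      · exact div_nonneg (by linarith [hx.1]) (by linarith)
      · exact (div_le_one (by linarith)).2 (by linarith [hx.2])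
      · have : m - a ≠ 0 := by linarith
        field_simp
        ring
    rw [← e]
    exact rcore_half h h3 (by linarith) fun s hs =>
      ⟨⟨(h5 s hs).1, (h5 s hs).2.trans hm.2⟩, mul_nonneg (by linarith) (h1 h4 _ (h5 s hs))⟩
  have e2 : ∃ C : ℝ, 0 ≤ C ∧ ∀ k : ℤ, Str p (kP k P) (Icc m b) C := by
    rcases le_or_gt b m with h4 | h4
    · exact rcore_null h3 h4
    have h5 : ∀ s ∈ Icc (0 : ℝ) 1, b + (m - b) * s ∈ Icc m b := fun s hs =>
      ⟨by nlinarith [hs.2], by nlinarith [hs.1]⟩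
    have e : (fun s => b + (m - b) * s) '' Icc 0 1 = Icc m b := by
      refine Subset.antisymm (image_subset_iff.2 h5) fun x hx => ⟨(b - x) / (b - m), ⟨?_, ?_⟩, ?_⟩
      · exact div_nonneg (by linarith [hx.2]) (by linarith)
      · exact (div_le_one (by linarith)).2 (by linarith [hx.1])
      · have : b - m ≠ 0 := by linarith
        field_simp
        ring
    rw [← e]
    exact rcore_half h h3 (by linarith) fun s hs =>
      ⟨⟨hm.1.trans (h5 s hs).1, (h5 s hs).2⟩,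
        mul_nonneg_of_nonpos_of_nonpos (by linarith) (h2 h4 _ (h5 s hs))⟩
  obtain ⟨C, hC, k1⟩ := e1
  obtain ⟨C', hC', k2⟩ := e2
  refine ⟨2 ^ p * (C + C'), by positivity, fun k => ?_⟩
  rw [← Icc_union_Icc_eq_Icc hm.1 hm.2]
  exact (k1 k).union (by linarith) (rcore_kr k h.sm.continuous.measurable) measurableSet_Icc hC hC'
    (k2 k)

end Vale.Agent.P122R
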