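import Vale.Agent.P122R.Geo

/-!
EP: the `L^1` bound of a remainder piece.  `P122.pce_pt` at `P s` gives `‖N‖ L ≤ C` and
`‖N‖ |y - ν| ≤ C`, `y = r √(P s)`.  `inf_pole`: as `P122.pce_inf`; the set with `|y - ν| ≤ L ^ 2` has
diameter at most `8 L ^ 2 σ / (c R)` by `Pf.lin`, the support has measure at most `4 K σ ^ 2` by `Pf.vol`.
`inf_eq`: let `s0` minimise `|r √(P s) - ν|` on `[0, 1]` (`IsCompact.exists_isMinOn`, `P` is continuous
there); `2 |y s - ν| ≥ |y s - y s0| ≥ R |P s - P s0| / 2 ≥ c R (s - s0) ^ 2 / 2` (`Pf.quad`), so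
`‖N‖ ≤ 2 C / (L + c R (s - s0) ^ 2 / 4)`; `P122.pce_int` with `√L`, `√(c R / 4)`; finally
`1 / √(L R) ≤ σ0 ^ (-3 / 2) L σ / R` for `σ0 ≤ σ`, because `(L σ / R) ^ 2 L R = σ ^ 3`.
-/

open MeasureTheory Set Real Filter
open scoped FourierTransform ENNReal ComplexConjugate Topology

namespace Vale.Agent.P122R

open Vale.Agent.P117 (Np pt rho)
open Vale.Agent.P122 hiding E3 rot

variable {P P1 P2 : ℝ → ℝ} {q M : ℝ}

theorem rep_d {ν R σ L r s s' : ℝ} (hR : 0 < R) (hσ : 0 < σ) (hr : R ≤ r)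
    (h1 : σ ^ 2 < s ∧ s ≤ 4 * σ ^ 2) (h2 : |r * √s - ν| ≤ L ^ 2)
    (h3 : σ ^ 2 < s' ∧ s' ≤ 4 * σ ^ 2) (h4 : |r * √s' - ν| ≤ L ^ 2) :
    |s - s'| ≤ 8 * L ^ 2 * σ / R := by
  obtain ⟨a1, a2⟩ := pce_sqrt hσ h1.1 h1.2
  obtain ⟨b1, b2⟩ := pce_sqrt hσ h3.1 h3.2
  have s0 : 0 ≤ s := le_trans (by positivity) h1.1.le
  have s1 : 0 ≤ s' := le_trans (by positivity) h3.1.le
  have e : s - s' = (√s - √s') * (√s + √s') := by
    have := Real.mul_self_sqrt s0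
    have := Real.mul_self_sqrt s1
    linarith
  have h5 : r * |√s - √s'| ≤ 2 * L ^ 2 := by
    have : r * |√s - √s'| = |(r * √s - ν) - (r * √s' - ν)| := by
      rw [← abs_of_pos (hR.trans_le hr), ← abs_mul, abs_of_pos (hR.trans_le hr)]
      congr 1; ring
    rw [this]
    linarith [abs_sub (r * √s - ν) (r * √s' - ν)]
  have h6 : R * |√s - √s'| ≤ 2 * L ^ 2 :=
    (mul_le_mul_of_nonneg_right hr (abs_nonneg _)).trans h5
  rw [e, abs_mul, abs_of_nonneg (by positivity : 0 ≤ √s + √s'), le_div_iff₀ hR]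
  have h7 : √s + √s' ≤ 4 * σ := by linarith
  have := mul_le_mul h6 h7 (by positivity) (by positivity)
  linarith

theorem rep_e {ν R r s s' : ℝ} (hR : 0 < R) (hr : R ≤ r) (s0 : 0 ≤ s) (h1 : s ≤ 1) (s1 : 0 ≤ s')
    (h2 : s' ≤ 1) : R * |s - s'| ≤ 2 * (|r * √s - ν| + |r * √s' - ν|) := by
  have e : s - s' = (√s - √s') * (√s + √s') := by
    have := Real.mul_self_sqrt s0
    have := Real.mul_self_sqrt s1
    linarith
  have h5 : r * |√s - √s'| ≤ |r * √s - ν| + |r * √s' - ν| := by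
    have : r * |√s - √s'| = |(r * √s - ν) - (r * √s' - ν)| := by
      rw [← abs_of_pos (hR.trans_le hr), ← abs_mul, abs_of_pos (hR.trans_le hr)]
      congr 1; ring
    rw [this]
    exact abs_sub _ _
  have h6 := (mul_le_mul_of_nonneg_right hr (abs_nonneg _)).trans h5
  have h7 : √s + √s' ≤ 2 := by linarith [Real.sqrt_le_one.2 h1, Real.sqrt_le_one.2 h2]
  have := mul_le_mul h6 h7 (by positivity) (by positivity)
  rw [e, abs_mul, abs_of_nonneg (by positivity : 0 ≤ √s + √s')]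
  linarith

theorem inf_pole (h : Pf P P1 P2 q M) : ∃ K : ℝ, 0 < K ∧ ∀ (C ν R σ L r : ℝ) (N : ℝ → ℂ), 0 < C →
    0 < R → 0 < σ → 2 * σ ≤ 1 → 0 < L → L ^ 3 = R * σ → Sml C ν (2 * R) N → 16 * M * σ ^ 2 ≤ q →
      ∫⁻ s in Icc (0 : ℝ) 1, ‖cp (kn N R (2 * R) (σ ^ 2) (4 * σ ^ 2)) P r s‖ₑ ≤
        ENNReal.ofReal (K * C * (L * σ / R)) := by
  obtain ⟨c, hc, hl⟩ := h.lin
  obtain ⟨K, hK, hv⟩ := h.vol
  refine ⟨8 / c + 4 * K, by positivity, fun C ν R σ L r N hC hR hσ h2 hL hL3 hN hq => ?_⟩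
  refine (setLIntegral_le_lintegral _ _).trans ?_
  set S := {s : ℝ | s ∈ Icc (0 : ℝ) 1 ∧ R ≤ r ∧ (σ ^ 2 < P s ∧ P s ≤ 4 * σ ^ 2) ∧
    |r * √(P s) - ν| ≤ L ^ 2} with hS
  set T := {s ∈ Icc (0 : ℝ) 1 | P s ≤ 4 * σ ^ 2} with hT
  have mT : MeasurableSet T := measurableSet_Icc.inter (measurableSet_le h.meas measurable_const)
  have key : ∀ s, ‖cp (kn N R (2 * R) (σ ^ 2) (4 * σ ^ 2)) P r s‖ₑ ≤
      S.indicator (fun _ => ENNReal.ofReal (C / L)) s +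
        T.indicator (fun _ => ENNReal.ofReal (C / L ^ 2)) s := fun s => by
    by_cases hs : s ∈ Icc (0 : ℝ) 1
    swap
    · simp [cp_out r hs]
    rw [cp_in r hs]
    unfold kn
    split_ifs with h1
    · obtain ⟨h5, h6⟩ := pce_pt hC hR hσ h2 hL3 hN h1
      rw [← ofReal_norm]
      by_cases hm : |r * √(P s) - ν| ≤ L ^ 2
      · rw [indicator_of_mem (show s ∈ S from ⟨hs, h1.1, h1.2.2, hm⟩)]
        exact le_add_right (ENNReal.ofReal_le_ofReal ((le_div_iff₀ hL).2 h5))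
      · rw [indicator_of_mem (show s ∈ T from ⟨hs, h1.2.2.2⟩)]
        refine le_add_left (ENNReal.ofReal_le_ofReal ((le_div_iff₀ (by positivity)).2 ?_))
        exact (mul_le_mul_of_nonneg_left (not_le.1 hm).le (norm_nonneg _)).trans h6
    · simp
  have vS : volume S ≤ ENNReal.ofReal (8 * L ^ 2 * σ / R / c) := by
    refine (Real.volume_le_diam _).trans (Metric.ediam_le_of_forall_dist_le ?_)
    rintro s ⟨a0, a1, a2, a3⟩ s' ⟨b0, -, b2, b3⟩
    have hM := h.M0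
    rw [Real.dist_eq, le_div_iff₀' hc]
    exact (hl s a0 s' b0 (by nlinarith [a2.2]) (by nlinarith [b2.2])).trans
      (rep_d hR hσ a1 a2 a3 b2 b3)
  refine (lintegral_mono key).trans ?_
  rw [lintegral_add_right _ (measurable_const.indicator mT), lintegral_indicator_const mT]
  refine (add_le_add ((lintegral_indicator_const_le _ _).trans (mul_le_mul_right vS _))
    (mul_le_mul_right (hv _ (by positivity)) _)).trans ?_
  rw [← ENNReal.ofReal_mul (by positivity), ← ENNReal.ofReal_mul (by positivity),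
    ← ENNReal.ofReal_add (by positivity) (by positivity)]
  refine ENNReal.ofReal_le_ofReal (le_of_eq ?_)
  have e : R = L ^ 3 / σ := by rw [hL3]; field_simp
  rw [e]
  field_simp

theorem inf_eq (h : Pf P P1 P2 q M) : ∃ K : ℝ, 0 < K ∧ ∀ (C ν R σ L r : ℝ) (N : ℝ → ℂ), 0 < C →
    0 < R → 0 < σ → 2 * σ ≤ 1 → 0 < L → L ^ 3 = R * σ → Sml C ν (2 * R) N → q < 16 * M * σ ^ 2 →
      ∫⁻ s in Icc (0 : ℝ) 1, ‖cp (kn N R (2 * R) (σ ^ 2) (4 * σ ^ 2)) P r s‖ₑ ≤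
        ENNReal.ofReal (K * C * (L * σ / R)) := by
  obtain ⟨c, hc, hl⟩ := h.quad
  have hM := h.M0
  have hq0 := h.q0
  obtain ⟨e, he0, he⟩ : ∃ e : ℝ, 0 < e ∧ e ^ 2 = c / 4 :=
    ⟨√(c / 4), by positivity, Real.sq_sqrt (by positivity)⟩
  refine ⟨2 * π / (q / (16 * M) * e), by positivity,
    fun C ν R σ L r N hC hR hσ h2 hL hL3 hN hq => ?_⟩
  obtain ⟨l, hl0, rfl⟩ : ∃ l : ℝ, 0 < l ∧ L = l ^ 2 :=
    ⟨√L, by positivity, (Real.sq_sqrt hL.le).symm⟩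
  obtain ⟨ρ, hρ0, rfl⟩ : ∃ ρ : ℝ, 0 < ρ ∧ R = ρ ^ 2 :=
    ⟨√R, by positivity, (Real.sq_sqrt hR.le).symm⟩
  have hP : ContinuousOn P (Icc 0 1) := fun s hs => (h.d1 s hs).continuousAt.continuousWithinAt
  obtain ⟨s0, hs0, hmin⟩ := isCompact_Icc.exists_isMinOn (nonempty_Icc.2 zero_le_one)
    (f := fun s => |r * √(P s) - ν|) (((continuousOn_const.mul hP.sqrt).sub continuousOn_const).abs)
  refine (setLIntegral_le_lintegral _ _).trans ((lintegral_mono fun s => ?_).trans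
    ((pce_int (K := 2 * C) hl0 (mul_pos he0 hρ0) (by positivity) (s0 * (e * ρ))).le.trans
      (ENNReal.ofReal_le_ofReal ?_)))
  · by_cases hs : s ∈ Icc (0 : ℝ) 1
    swap
    · simp [cp_out r hs]
    rw [cp_in r hs]
    unfold kn
    split_ifs with h1
    swap
    · simp
    obtain ⟨h5, h6⟩ := pce_pt hC hR hσ h2 hL3 hN h1
    rw [← ofReal_norm]
    refine ENNReal.ofReal_le_ofReal ?_
    rw [← div_eq_mul_inv, le_div_iff₀ (by positivity)]
    have h7 : |r * √(P s0) - ν| ≤ |r * √(P s) - ν| := hmin hs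
    have h8 := rep_e (ν := ν) hR h1.1 (h.p0 s hs) (h.p1 s hs) (h.p0 s0 hs0) (h.p1 s0 hs0)
    have h9 := mul_le_mul_of_nonneg_left (hl s hs s0 hs0) hR.le
    have h10 : (s * (e * ρ) - s0 * (e * ρ)) ^ 2 ≤ |r * √(P s) - ν| := by
      have : (s * (e * ρ) - s0 * (e * ρ)) ^ 2 = e ^ 2 * (ρ ^ 2 * (s - s0) ^ 2) := by ring
      rw [this, he]
      linarith
    have h11 := mul_le_mul_of_nonneg_left h10 (norm_nonneg (N (r * √(P s))))
    linarith
  · have a0 : 0 < q / (16 * M) := by positivity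
    have a1 : q / (16 * M) ≤ σ ^ 2 := by
      rw [div_le_iff₀' (by positivity)]
      exact hq.le
    generalize q / (16 * M) = a at a0 a1
    have a2 : a * ρ ≤ l ^ 3 * σ := by
      refine le_of_pow_le_pow_left₀ (n := 2) (by norm_num) (by positivity) ?_
      have a3 : a ^ 2 ≤ σ ^ 3 := by
        calc a ^ 2 ≤ (σ ^ 2) ^ 2 := by gcongr
          _ = σ ^ 3 * σ := by ring
          _ ≤ σ ^ 3 := mul_le_of_le_one_right (by positivity) (by linarith)
      calc (a * ρ) ^ 2 = a ^ 2 * ρ ^ 2 := by ring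
        _ ≤ σ ^ 3 * ρ ^ 2 := by gcongr
        _ = (ρ ^ 2 * σ) * σ ^ 2 := by ring
        _ = _ := by rw [← hL3]; ring
    calc 2 * C * (π / (l * (e * ρ))) = 2 * π / (a * e) * C * (a * ρ / (l * ρ ^ 2)) := by
          field_simp
      _ ≤ 2 * π / (a * e) * C * (l ^ 3 * σ / (l * ρ ^ 2)) := by gcongr
      _ = _ := by field_simp

end Vale.Agent.P122R
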