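import Vale.Agent.P122R.Base

/-!
Geo: the profile.  `mono`: `monotoneOn_of_deriv_nonneg`.  `pole`: `P1 ^ 2 ≥ q + 2 P P2 ≥ q - 2 P M`.
`qlow`, `qpole`: with `Q = P1 ^ 2 - 2 P2 (P - c)` one has
`Q * P = (P - c) (P1 ^ 2 - 2 P P2) + c P1 ^ 2` and `0 < P ≤ 1`.  `quad`: first `c (1 - x) ≤ P1 x` with
`c = min (√(q / 2)) (q / 5)`: if `P1 x < √(q / 2)` use the barrier `B y = P1 x - q / 5 * (y - x)` on
`[x, 1]` (`image_le_of_deriv_right_lt_deriv_boundary`; where `P1 ^ 2 ≤ q / 2` one has `P2 ≤ -q / 4`)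
and `0 ≤ P1 1`; then `x ↦ P x + c / 2 * (s' - x) ^ 2` increases on `[s, s']`.  `lin`: between two such
points `4 M P ≤ q` (`mono`), so `√(q / 2) ≤ P1`.  `vol`: if `q < 4 M η` use `volume ≤ 1`, otherwise
`lin` bounds the diameter (`Real.volume_le_diam`, or an interval about one point of the set).
-/

open MeasureTheory Set Real Filter
open scoped FourierTransform ENNReal ComplexConjugate Topology

namespace Vale.Agent.P122R

open Vale.Agent.P117 (Np pt rho)
open Vale.Agent.P122 hiding E3 rot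

variable {P P1 P2 : ℝ → ℝ} {q M : ℝ}

theorem rgeo_mono {f f' : ℝ → ℝ} {a b : ℝ} (hd : ∀ x ∈ Icc a b, HasDerivAt f (f' x) x)
    (h0 : ∀ x ∈ Icc a b, 0 ≤ f' x) : MonotoneOn f (Icc a b) :=
  monotoneOn_of_deriv_nonneg (convex_Icc a b)
    (fun x hx => (hd x hx).continuousAt.continuousWithinAt)
    (fun x hx => (hd x (interior_subset hx)).differentiableAt.differentiableWithinAt)
    fun x hx => by
      rw [(hd x (interior_subset hx)).deriv]
      exact h0 x (interior_subset hx)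

theorem Pf.mono (h : Pf P P1 P2 q M) : MonotoneOn P (Icc 0 1) := by
  exact rgeo_mono h.d1 h.inc

theorem Pf.pole (h : Pf P P1 P2 q M) {s : ℝ} (hs : s ∈ Icc (0 : ℝ) 1) (h4 : 4 * M * P s ≤ q) :
    q / 2 ≤ P1 s ^ 2 := by
  have h1 := h.cur s hs
  have h2 := mul_le_mul_of_nonneg_left (abs_le.1 (h.bd s hs)).1 (h.p0 s hs)
  linarith

theorem Pf.qlow (h : Pf P P1 P2 q M) {s c : ℝ} (hs : s ∈ Icc (0 : ℝ) 1) (h0 : 0 ≤ c)
    (hc : c < P s) : q * (P s - c) ≤ P1 s ^ 2 - 2 * P2 s * (P s - c) := by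
  have hP : 0 < P s := h0.trans_lt hc
  have h1 := mul_le_mul_of_nonneg_left (h.cur s hs) (sub_nonneg.2 hc.le)
  have h2 := mul_nonneg h0 (sq_nonneg (P1 s))
  have h3 : q * (P s - c) ≤ (P1 s ^ 2 - 2 * P2 s * (P s - c)) * P s := by linarith
  have h4 : 0 ≤ P1 s ^ 2 - 2 * P2 s * (P s - c) :=
    nonneg_of_mul_nonneg_left ((mul_nonneg h.q0.le (sub_nonneg.2 hc.le)).trans h3) hP
  exact h3.trans (mul_le_of_le_one_right h4 (h.p1 s hs))

theorem Pf.qpole (h : Pf P P1 P2 q M) {s c : ℝ} (hs : s ∈ Icc (0 : ℝ) 1) (h0 : 0 ≤ c)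
    (hc : c < P s) (h4 : 4 * M * P s ≤ q) : q / 2 ≤ P1 s ^ 2 - 2 * P2 s * (P s - c) := by
  have hP : 0 < P s := h0.trans_lt hc
  have h1 := mul_le_mul_of_nonneg_left (h.cur s hs) (sub_nonneg.2 hc.le)
  have h2 := mul_le_mul_of_nonneg_left (h.pole hs h4) h0
  have h3 := mul_nonneg h.q0.le (sub_nonneg.2 hc.le)
  refine le_of_mul_le_mul_right ?_ hP
  linarith

theorem rgeo_slope (h : Pf P P1 P2 q M) {x : ℝ} (hx : x ∈ Icc (0 : ℝ) 1) :
    min √(q / 2) (q / 5) * (1 - x) ≤ P1 x := by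
  have hq := h.q0
  have hc : 0 ≤ min √(q / 2) (q / 5) := le_min (sqrt_nonneg _) (by positivity)
  have h1 : 0 ≤ 1 - x := by linarith [hx.2]
  rcases le_or_gt √(q / 2) (P1 x) with h2 | h2
  · have h3 := mul_le_mul_of_nonneg_left (show 1 - x ≤ 1 by linarith [hx.1]) hc
    linarith [min_le_left √(q / 2) (q / 5)]
  · have hs : ∀ y ∈ Icc x 1, y ∈ Icc (0 : ℝ) 1 := fun y hy => ⟨hx.1.trans hy.1, hy.2⟩
    have h3 := image_le_of_deriv_right_lt_deriv_boundary (f := P1) (f' := P2) (a := x) (b := 1)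
      (fun y hy => (h.d2 y (hs y hy)).continuousAt.continuousWithinAt)
      (fun y hy => (h.d2 y (hs y (Ico_subset_Icc_self hy))).hasDerivWithinAt)
      (B := fun y => P1 x - q / 5 * (y - x)) (B' := fun _ => -(q / 5 * 1)) (by simp)
      (fun y => (((hasDerivAt_id' y).sub_const x).const_mul (q / 5)).const_sub (P1 x))
      (fun y hy e => by
        have hy' := hs y (Ico_subset_Icc_self hy)
        have a1 := h.inc y hy'
        have a2 : P1 y ≤ √(q / 2) := by
          have := mul_nonneg (show 0 ≤ q / 5 by positivity) (sub_nonneg.2 hy.1)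
          linarith
        have a3 : P1 y ^ 2 ≤ q / 2 := by
          have := pow_le_pow_left₀ a1 a2 2
          rwa [sq_sqrt (by positivity)] at this
        have a4 := h.cur y hy'
        have a5 := h.p0 y hy'
        have a6 := h.p1 y hy'
        have a7 : P2 y ≤ 0 := by
          by_contra a8
          have := mul_nonneg a5 (not_le.1 a8).le
          linarith
        have a8 := mul_nonneg (sub_nonneg.2 a6) (neg_nonneg.2 a7)
        linarith) (right_mem_Icc.2 hx.2)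
    have h4 := h.inc 1 (right_mem_Icc.2 zero_le_one)
    have h5 := mul_le_mul_of_nonneg_right (min_le_right √(q / 2) (q / 5)) h1
    have h6 : P1 1 ≤ P1 x - q / 5 * (1 - x) := h3
    linarith

theorem Pf.quad (h : Pf P P1 P2 q M) : ∃ c : ℝ, 0 < c ∧ ∀ s ∈ Icc (0 : ℝ) 1, ∀ s' ∈ Icc (0 : ℝ) 1,
    c * (s - s') ^ 2 ≤ |P s - P s'| := by
  have hq := h.q0
  have hc : 0 < min √(q / 2) (q / 5) := lt_min (sqrt_pos.2 (by positivity)) (by positivity)
  have key : ∀ s ∈ Icc (0 : ℝ) 1, ∀ s' ∈ Icc (0 : ℝ) 1, s ≤ s' →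
      min √(q / 2) (q / 5) / 2 * (s' - s) ^ 2 ≤ P s' - P s := by
    intro s hs s' hs' hle
    have hsub : ∀ y ∈ Icc s s', y ∈ Icc (0 : ℝ) 1 := fun y hy => ⟨hs.1.trans hy.1, hy.2.trans hs'.2⟩
    have h1 := rgeo_mono (a := s) (b := s')
      (f := fun x => P x + min √(q / 2) (q / 5) / 2 * ((s' - x) * (s' - x)))
      (f' := fun x => P1 x + min √(q / 2) (q / 5) / 2 * (-1 * (s' - x) + (s' - x) * -1))
      (fun x hx => (h.d1 x (hsub x hx)).add ((((hasDerivAt_id' x).const_sub s').mul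
        ((hasDerivAt_id' x).const_sub s')).const_mul _))
      (fun x hx => by
        have a1 := rgeo_slope h (hsub x hx)
        have a2 := mul_le_mul_of_nonneg_left (sub_le_sub_right hs'.2 x) hc.le
        linarith) (left_mem_Icc.2 hle) (right_mem_Icc.2 hle) hle
    simp only [sub_self, mul_zero, add_zero] at h1
    linarith
  refine ⟨_, half_pos hc, fun s hs s' hs' => ?_⟩
  rcases le_total s s' with h1 | h1
  · have := key s hs s' hs' h1
    have := neg_le_abs (P s - P s')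
    linarith
  · exact (key s' hs' s hs h1).trans (le_abs_self _)

theorem Pf.lin (h : Pf P P1 P2 q M) : ∃ c : ℝ, 0 < c ∧ ∀ s ∈ Icc (0 : ℝ) 1, ∀ s' ∈ Icc (0 : ℝ) 1,
    4 * M * P s ≤ q → 4 * M * P s' ≤ q → c * |s - s'| ≤ |P s - P s'| := by
  have hq := h.q0
  have key : ∀ s ∈ Icc (0 : ℝ) 1, ∀ s' ∈ Icc (0 : ℝ) 1, 4 * M * P s' ≤ q → s ≤ s' →
      √(q / 2) * (s' - s) ≤ P s' - P s := by
    intro s hs s' hs' h4 hle
    have hsub : ∀ y ∈ Icc s s', y ∈ Icc (0 : ℝ) 1 := fun y hy => ⟨hs.1.trans hy.1, hy.2.trans hs'.2⟩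
    have h1 := rgeo_mono (a := s) (b := s') (f := fun x => P x - √(q / 2) * x)
      (f' := fun x => P1 x - √(q / 2) * 1)
      (fun x hx => (h.d1 x (hsub x hx)).sub ((hasDerivAt_id' x).const_mul _))
      (fun x hx => by
        have a1 := mul_le_mul_of_nonneg_left (h.mono (hsub x hx) hs' hx.2)
          (show 0 ≤ 4 * M by linarith [h.M0])
        have a2 := sqrt_le_iff.2 ⟨h.inc x (hsub x hx), h.pole (hsub x hx) (a1.trans h4)⟩
        linarith) (left_mem_Icc.2 hle) (right_mem_Icc.2 hle) hle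
    simp only at h1
    linarith
  refine ⟨√(q / 2), sqrt_pos.2 (by positivity), fun s hs s' hs' h4 h4' => ?_⟩
  rcases le_total s s' with h1 | h1
  · rw [abs_sub_comm s, abs_sub_comm (P s), abs_of_nonneg (sub_nonneg.2 h1)]
    exact (key s hs s' hs' h4' h1).trans (le_abs_self _)
  · rw [abs_of_nonneg (sub_nonneg.2 h1)]
    exact (key s' hs' s hs h4 h1).trans (le_abs_self _)

theorem Pf.vol (h : Pf P P1 P2 q M) : ∃ K : ℝ, 0 < K ∧ ∀ η : ℝ, 0 < η →
    volume {s ∈ Icc (0 : ℝ) 1 | P s ≤ η} ≤ ENNReal.ofReal (K * η) := by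
  obtain ⟨c, hc, hl⟩ := h.lin
  have hq := h.q0
  have hM := h.M0
  refine ⟨4 * M / q + 1 / c, by positivity, fun η hη => ?_⟩
  have h1 : 0 ≤ 4 * M / q * η := by positivity
  have h2 : 0 ≤ 1 / c * η := by positivity
  rcases lt_or_ge q (4 * M * η) with h3 | h3
  · refine (measure_mono (sep_subset _ _)).trans ?_
    rw [Real.volume_Icc]
    refine ENNReal.ofReal_le_ofReal ?_
    have h4 : 1 ≤ 4 * M / q * η := by
      rw [div_mul_eq_mul_div, le_div_iff₀ hq]
      linarith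
    linarith
  · refine (Real.volume_le_diam _).trans (Metric.ediam_le_of_forall_dist_le fun s hs s' hs' => ?_)
    have h4 : 0 ≤ 4 * M := by positivity
    have h5 := hl s hs.1 s' hs'.1 ((mul_le_mul_of_nonneg_left hs.2 h4).trans h3)
      ((mul_le_mul_of_nonneg_left hs'.2 h4).trans h3)
    have h6 : |P s - P s'| ≤ η :=
      abs_le.2 ⟨by linarith [h.p0 s hs.1, hs'.2], by linarith [h.p0 s' hs'.1, hs.2]⟩
    have h7 : |s - s'| ≤ 1 / c * η := by
      rw [div_mul_eq_mul_div, le_div_iff₀ hc]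
      linarith
    rw [Real.dist_eq]
    linarith

end Vale.Agent.P122R
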