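import Vale.Agent.P122R.Conc

/-!
Ker: the kernel of a main piece, as in `P122.Ker` with `four_pt`, `four_mono` and `H2 = 1 / ψ'`.
-/

open MeasureTheory Set Real Filter
open scoped FourierTransform ENNReal ComplexConjugate Topology

namespace Vale.Agent.P122R

open Vale.Agent.P117 (Np pt rho)
open Vale.Agent.P122 hiding E3 rot

variable {P P1 P2 : ℝ → ℝ} {q M : ℝ}

/-- the hypotheses at one point -/
def RkerOk (P : ℝ → ℝ) (ν μ a b s : ℝ) : Prop :=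
  s ∈ Icc (0 : ℝ) 1 ∧ ∀ r ∈ Icc a b, μ ≤ uu ν r (P s) ∧ uu ν r (P s) ≤ 2 * μ

/-- the integral -/
noncomputable def rkerI (P : ℝ → ℝ) (ν a b s1 s2 s3 s4 : ℝ) : ℂ :=
  ∫ r in a..b, mm ν (r * √(P s1)) * mm ν (r * √(P s2)) *
    conj (mm ν (r * √(P s3)) * mm ν (r * √(P s4)))

theorem rker_zero {a b c d : ℂ} (h : (a = 0 ∨ b = 0) ∨ c = 0 ∨ d = 0) :
    a * b * conj (c * d) = 0 := by
  rcases h with (h | h) | h | h <;> simp [h]

theorem rker_swap (ν a b s1 s2 s3 s4 : ℝ) :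
    rkerI P ν a b s1 s2 s4 s3 = rkerI P ν a b s1 s2 s3 s4 := by
  simp only [rkerI, mul_comm (mm ν (_ * √(P s4)))]

theorem rker_conj (ν : ℝ) {a b : ℝ} (hab : a ≤ b) (s1 s2 s3 s4 : ℝ) :
    ‖rkerI P ν a b s3 s4 s1 s2‖ = ‖rkerI P ν a b s1 s2 s3 s4‖ := by
  rw [← Complex.norm_conj, rkerI, rkerI, intervalIntegral.integral_of_le hab,
    intervalIntegral.integral_of_le hab, ← integral_conj]
  congr 1
  refine integral_congr_ae (Eventually.of_forall fun r => ?_)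
  simp only [map_mul, Complex.conj_conj]
  ring

theorem rker_core (h : Pf P P1 P2 q M) {ν R μ m a b s1 s2 s3 s4 : ℝ} (hν : 0 ≤ ν) (hR : 0 < R)
    (hμ : 0 < μ) (hm : 0 < m) (hQ : ∀ r ∈ Icc R (2 * R), ∀ x ∈ Icc (0 : ℝ) 1, μ ≤ uu ν r (P x) →
      uu ν r (P x) ≤ 2 * μ → m ≤ P1 x ^ 2 - 2 * P2 x * (P x - ν ^ 2 / r ^ 2))
    (hab : a ≤ b) (hr : ∀ r ∈ Icc a b, r ∈ Icc R (2 * R)) (he : s1 + s2 = s3 + s4)
    (h31 : s3 < s1) (h32 : s3 < s2) (o1 : RkerOk P ν μ a b s1) (o2 : RkerOk P ν μ a b s2)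
    (o3 : RkerOk P ν μ a b s3) (o4 : RkerOk P ν μ a b s4) :
    ‖rkerI P ν a b s1 s2 s3 s4‖ * (s1 * s2 - s3 * s4) ≤ 192 * μ / (R ^ 2 * m) := by
  obtain ⟨i1, h1⟩ := o1
  obtain ⟨i2, h2⟩ := o2
  obtain ⟨i3, h3⟩ := o3
  obtain ⟨i4, h4⟩ := o4
  have hp : ∀ r ∈ Icc a b, 0 < r := fun r h => hR.trans_le (hr r h).1
  have hΔ : 0 < s1 * s2 - s3 * s4 := by
    have : s1 * s2 - s3 * s4 = (s1 - s3) * (s2 - s3) := by linear_combination s3 * he
    rw [this]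
    exact mul_pos (by linarith) (by linarith)
  have hx : ∀ r ∈ Icc a b, ∀ x ∈ Icc s3 s4, μ ≤ uu ν r (P x) ∧ uu ν r (P x) ≤ 2 * μ :=
    fun r hr' x hx => by
      have ix : x ∈ Icc (0 : ℝ) 1 := ⟨i3.1.trans hx.1, hx.2.trans i4.2⟩
      have e1 := h.mono i3 ix hx.1
      have e2 := h.mono ix i4 hx.2
      exact ⟨(h3 r hr').1.trans (Real.sqrt_le_sqrt (by linarith)),
        le_trans (Real.sqrt_le_sqrt (by linarith)) (h4 r hr').2⟩
  obtain ⟨ψ', hψ'⟩ : ∃ ψ' : ℝ → ℝ, ψ' = fun r =>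
      uu ν r (P s1) + uu ν r (P s2) - uu ν r (P s3) - uu ν r (P s4) := ⟨_, rfl⟩
  obtain ⟨lam, hlam⟩ : ∃ lam, lam = m / (32 * μ ^ 3) * (s1 * s2 - s3 * s4) := ⟨_, rfl⟩
  have hl0 : 0 < lam := by
    rw [hlam]
    positivity
  have hlow : ∀ r ∈ Icc a b, lam ≤ ψ' r := fun r hr' => by
    rw [hlam, hψ']
    exact four_pt h hμ hm.le i3.1 i4.2 h31.le h32.le he fun x hx' =>
      ⟨ker_pos hμ (hx r hr' x hx').1, (hx r hr' x hx').2, hQ r (hr r hr') x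
        ⟨i3.1.trans hx'.1, hx'.2.trans i4.2⟩ (hx r hr' x hx').1 (hx r hr' x hx').2⟩
  have hanti : AntitoneOn ψ' (Icc a b) := fun r hr' r' _ hrr => by
    have := hp r hr'
    rw [hψ']
    exact four_mono h (by positivity) (show ν ^ 2 / r' ^ 2 ≤ ν ^ 2 / r ^ 2 by gcongr) i3.1 i4.2
      h31.le h32.le he fun x hx' => ker_pos hμ (hx r hr' x hx').1
  have hd : ∀ r ∈ Icc a b, ContDiffAt ℝ 1 ψ' r := fun r h => by
    rw [hψ']
    exact (((ker_udiff (hp r h) (ker_pos hμ (h1 r h).1)).add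
      (ker_udiff (hp r h) (ker_pos hμ (h2 r h).1))).sub
      (ker_udiff (hp r h) (ker_pos hμ (h3 r h).1))).sub
      (ker_udiff (hp r h) (ker_pos hμ (h4 r h).1))
  have hA := vdc (B1 := ((√(R * μ))⁻¹) ^ 4) (B2 := lam⁻¹)
    (ψ := fun r => ph ν (r * √(P s1)) + ph ν (r * √(P s2)) - ph ν (r * √(P s3)) -
      ph ν (r * √(P s4))) (ψ' := ψ')
    (H1 := fun r => kerA ν (P s1) r * kerA ν (P s2) r * (kerA ν (P s3) r * kerA ν (P s4) r))
    (H2 := fun r => (ψ' r)⁻¹) hab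
    (fun r h => by
      rw [hψ']
      exact (((ker_ph hν (hp r h) (ker_pos hμ (h1 r h).1)).add
        (ker_ph hν (hp r h) (ker_pos hμ (h2 r h).1))).sub
        (ker_ph hν (hp r h) (ker_pos hμ (h3 r h).1))).sub
        (ker_ph hν (hp r h) (ker_pos hμ (h4 r h).1)))
    (fun r h => (hd r h).continuousAt.continuousWithinAt)
    (fun r h => ((ker_Adiff hμ (hp r h) (h1 r h).1).mul (ker_Adiff hμ (hp r h) (h2 r h).1)).mul
      ((ker_Adiff hμ (hp r h) (h3 r h).1).mul (ker_Adiff hμ (hp r h) (h4 r h).1)))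
    (fun r h => (hd r h).inv (hl0.trans_le (hlow r h)).ne')
    (Or.inr fun r h r' _ hrr => by
      have := ker_Aanti hμ (hp r h) (h1 r h).1 hrr
      have := ker_Aanti hμ (hp r h) (h2 r h).1 hrr
      have := ker_Aanti hμ (hp r h) (h3 r h).1 hrr
      have := ker_Aanti hμ (hp r h) (h4 r h).1 hrr
      have := ker_A0 ν (P s1) r
      have := ker_A0 ν (P s2) r
      have := ker_A0 ν (P s3) r
      have := ker_A0 ν (P s2) r'
      have := ker_A0 ν (P s3) r'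
      have := ker_A0 ν (P s4) r'
      show _ * _ * (_ * _) ≤ _ * _ * (_ * _)
      gcongr)
    (Or.inl fun r h r' h' hrr => inv_anti₀ (hl0.trans_le (hlow r' h')) (hanti h h' hrr))
    (fun r h => by
      have := ker_Ale hR hμ (hr r h).1 (h1 r h).1
      have := ker_Ale hR hμ (hr r h).1 (h2 r h).1
      have := ker_Ale hR hμ (hr r h).1 (h3 r h).1
      have := ker_Ale hR hμ (hr r h).1 (h4 r h).1
      have := ker_A0 ν (P s1) r
      have := ker_A0 ν (P s2) r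
      have := ker_A0 ν (P s3) r
      have := ker_A0 ν (P s4) r
      rw [abs_of_nonneg (by positivity), show ∀ x : ℝ, x ^ 4 = x * x * (x * x) from
        fun x => by ring]
      gcongr)
    (fun r h => by
      rw [abs_of_pos (inv_pos.2 (hl0.trans_le (hlow r h)))]
      exact inv_anti₀ hl0 (hlow r h))
  have hI : rkerI P ν a b s1 s2 s3 s4 = ∫ r in a..b,
      ((kerA ν (P s1) r * kerA ν (P s2) r * (kerA ν (P s3) r * kerA ν (P s4) r) * (ψ' r)⁻¹ *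
        ψ' r : ℝ) : ℂ) * ex (ph ν (r * √(P s1)) + ph ν (r * √(P s2)) - ph ν (r * √(P s3)) -
          ph ν (r * √(P s4))) := by
    refine intervalIntegral.integral_congr fun r h => ?_
    rw [uIcc_of_le hab] at h
    rw [mul_assoc (_ * _ * (_ * _)), inv_mul_cancel₀ (hl0.trans_le (hlow r h)).ne', mul_one,
      ker_mm (hp r h) (ker_spos (ker_pos hμ (h1 r h).1)).le,
      ker_mm (hp r h) (ker_spos (ker_pos hμ (h2 r h).1)).le,
      ker_mm (hp r h) (ker_spos (ker_pos hμ (h3 r h).1)).le,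
      ker_mm (hp r h) (ker_spos (ker_pos hμ (h4 r h).1)).le, sub_eq_add_neg, sub_eq_add_neg,
      ex_add, ex_add, ex_add]
    simp only [map_mul, Complex.conj_ofReal, conj_ex]
    push_cast
    ring
  rw [hI]
  have e4 : (√(R * μ))⁻¹ ^ 4 = ((R * μ) ^ 2)⁻¹ := by
    rw [inv_pow, show 4 = 2 * 2 from rfl, pow_mul, Real.sq_sqrt (by positivity)]
  refine (mul_le_mul_of_nonneg_right hA hΔ.le).trans (le_of_eq ?_)
  rw [e4, hlam]
  field_simp
  norm_num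

theorem rker_pos (h : Pf P P1 P2 q M) {ν R μ m a b s1 s2 s3 s4 : ℝ} (hν : 0 ≤ ν) (hR : 0 < R)
    (hμ : 0 < μ) (hm : 0 < m) (hQ : ∀ r ∈ Icc R (2 * R), ∀ x ∈ Icc (0 : ℝ) 1, μ ≤ uu ν r (P x) →
      uu ν r (P x) ≤ 2 * μ → m ≤ P1 x ^ 2 - 2 * P2 x * (P x - ν ^ 2 / r ^ 2))
    (hab : a ≤ b) (hr : ∀ r ∈ Icc a b, r ∈ Icc R (2 * R)) (he : s1 + s2 = s3 + s4)
    (hΔ : 0 < s1 * s2 - s3 * s4) (o1 : RkerOk P ν μ a b s1) (o2 : RkerOk P ν μ a b s2)
    (o3 : RkerOk P ν μ a b s3) (o4 : RkerOk P ν μ a b s4) :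
    ‖rkerI P ν a b s1 s2 s3 s4‖ * (s1 * s2 - s3 * s4) ≤ 192 * μ / (R ^ 2 * m) := by
  have e : s1 * s2 - s3 * s4 = (s1 - s3) * (s2 - s3) := by linear_combination s3 * he
  rcases pos_and_pos_or_neg_and_neg_of_mul_pos (e ▸ hΔ) with h' | h'
  · exact rker_core h hν hR hμ hm hQ hab hr he (by linarith [h'.1]) (by linarith [h'.2])
      o1 o2 o3 o4
  · rw [← rker_swap, mul_comm s3 s4]
    exact rker_core h hν hR hμ hm hQ hab hr (by linarith) (by linarith [h'.2])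
      (by linarith [h'.1]) o1 o2 o4 o3

theorem kk_cp (h : Pf P P1 P2 q M) {ν R μ m : ℝ} (hν : 0 ≤ ν) (hR : 0 < R) (hμ : 0 < μ)
    (hm : 0 < m) (hQ : ∀ r ∈ Icc R (2 * R), ∀ x ∈ Icc (0 : ℝ) 1, μ ≤ uu ν r (P x) →
      uu ν r (P x) ≤ 2 * μ → m ≤ P1 x ^ 2 - 2 * P2 x * (P x - ν ^ 2 / r ^ 2)) (τ s s' : ℝ) :
    ‖KK (cp (km ν R μ) P) τ s s'‖ * |(s - s') * (s + s' - τ)| ≤ 192 * μ / (R ^ 2 * m) := by
  have e0 : |(s - s') * (s + s' - τ)| = |s * (τ - s) - s' * (τ - s')| := by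
    rw [← abs_neg]
    congr 1
    ring
  rw [e0]
  by_cases hin : (s ∈ Icc (0 : ℝ) 1 ∧ τ - s ∈ Icc (0 : ℝ) 1) ∧
      s' ∈ Icc (0 : ℝ) 1 ∧ τ - s' ∈ Icc (0 : ℝ) 1
  swap
  · have : KK (cp (km ν R μ) P) τ s s' = 0 := by
      refine integral_eq_zero_of_ae (Eventually.of_forall fun r => ?_)
      refine rker_zero ?_
      simp only [not_and_or] at hin
      exact hin.imp (Or.imp (cp_out r) (cp_out r)) (Or.imp (cp_out r) (cp_out r))
    rw [this, norm_zero, zero_mul]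
    positivity
  obtain ⟨S, hS⟩ : ∃ S : Set ℝ, S = ({r | Pc ν R μ r (P s)} ∩ {r | Pc ν R μ r (P (τ - s))}) ∩
      ({r | Pc ν R μ r (P s')} ∩ {r | Pc ν R μ r (P (τ - s'))}) := ⟨_, rfl⟩
  have hO : S.OrdConnected := by
    rw [hS]
    exact ((ker_ord hν hR _).inter (ker_ord hν hR _)).inter
      ((ker_ord hν hR _).inter (ker_ord hν hR _))
  have hm' : ∀ r ∈ S, (Pc ν R μ r (P s) ∧ Pc ν R μ r (P (τ - s))) ∧ Pc ν R μ r (P s') ∧
      Pc ν R μ r (P (τ - s')) := fun r h => by rwa [hS] at h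
  have e1 : KK (cp (km ν R μ) P) τ s s' = ∫ r in S, mm ν (r * √(P s)) * mm ν (r * √(P (τ - s))) *
      conj (mm ν (r * √(P s')) * mm ν (r * √(P (τ - s')))) := by
    rw [← integral_indicator hO.measurableSet, KK]
    refine integral_congr_ae (Eventually.of_forall fun r => ?_)
    simp only [cp_in r hin.1.1, cp_in r hin.1.2, cp_in r hin.2.1, cp_in r hin.2.2]
    by_cases h : r ∈ S
    · simp only [indicator_of_mem h, km, (hm' r h).1.1, (hm' r h).1.2, (hm' r h).2.1,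
        (hm' r h).2.2, if_true]
    · rw [indicator_of_notMem h]
      simp only [hS, mem_inter_iff, mem_setOf_eq, not_and_or] at h
      exact rker_zero (h.imp (Or.imp (fun h => if_neg h) fun h => if_neg h)
        (Or.imp (fun h => if_neg h) fun h => if_neg h))
  rw [e1]
  rcases S.eq_empty_or_nonempty with h' | h'
  · rw [h', setIntegral_empty, norm_zero, zero_mul]
    positivity
  have hsub : S ⊆ Icc R (2 * R) := fun r hr => ⟨(hm' r hr).1.1.1, (hm' r hr).1.1.2.1.le⟩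
  obtain ⟨a, b, hab, hc, hI⟩ := ord_int hO h' hsub
  rw [hI]
  have hr : ∀ r ∈ Icc a b, r ∈ Icc R (2 * R) := fun r hr =>
    closure_minimal hsub isClosed_Icc (hc hr)
  have o1 : RkerOk P ν μ a b s :=
    ⟨hin.1.1, fun r hr => (ker_clos hR (fun r h => (hm' r h).1.1) (hc hr)).2⟩
  have o2 : RkerOk P ν μ a b (τ - s) :=
    ⟨hin.1.2, fun r hr => (ker_clos hR (fun r h => (hm' r h).1.2) (hc hr)).2⟩
  have o3 : RkerOk P ν μ a b s' :=
    ⟨hin.2.1, fun r hr => (ker_clos hR (fun r h => (hm' r h).2.1) (hc hr)).2⟩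
  have o4 : RkerOk P ν μ a b (τ - s') :=
    ⟨hin.2.2, fun r hr => (ker_clos hR (fun r h => (hm' r h).2.2) (hc hr)).2⟩
  change ‖rkerI P ν a b s (τ - s) s' (τ - s')‖ * _ ≤ _
  rcases lt_trichotomy (s * (τ - s) - s' * (τ - s')) 0 with hΔ | hΔ | hΔ
  · rw [abs_of_neg hΔ, neg_sub, rker_conj ν hab]
    exact rker_pos h hν hR hμ hm hQ hab hr (by ring) (by linarith) o3 o4 o1 o2
  · rw [hΔ, abs_zero, mul_zero]
    positivity
  · rw [abs_of_pos hΔ]
    exact rker_pos h hν hR hμ hm hQ hab hr (by ring) hΔ o1 o2 o3 o4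

end Vale.Agent.P122R
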