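import Vale.Agent.P122R.Base

/-!
MF: two abstract bounds for main pieces.  `main_far`: with `t > 0`, `t ^ 4 = min 1 m`, the kernel
`t * κ` satisfies the hypotheses of `P122.pcm_gen` (`KK (t κ) = t ^ 4 KK κ`); return by
`Bnd.const_mul` with `t⁻¹` and `Bnd.congr`.  `main_eq`: as `pcm_gen` (`pcm_triv`, `pcm_mix`,
`bnd_four`, `bnd_two`, `bnd_mid`) with `ε = (p - 3) / 24`, `A = μ / β`, `K = 192 / (q R ^ 2 μ)`,
`‖KK‖ ≤ (R μ)⁻¹ ^ 2 R ≤ L * K` for `L = (q / β + 1) * R ^ 2` (since `β ≤ R μ ^ 3 ≤ R μ`).  The result is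
`C μ ^ (3 - p) R ^ ((ε - 1) (p - 2))`, `μ ^ (3 - p) ≤ (R / β) ^ ((p - 3) / 3)`.
-/

open MeasureTheory Set Real Filter
open scoped FourierTransform ENNReal ComplexConjugate Topology

namespace Vale.Agent.P122R

open Vale.Agent.P117 (Np pt rho)
open Vale.Agent.P122 hiding E3 rot

variable {P P1 P2 : ℝ → ℝ} {q M : ℝ}

theorem rmf_kk (c : ℝ) (κ : ℝ → ℝ → ℂ) (τ s s' : ℝ) :
    KK (fun r s => (c : ℂ) * κ r s) τ s s' = (c : ℂ) ^ 4 * KK κ τ s s' := by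
  unfold KK
  rw [← integral_const_mul]
  refine integral_congr_ae (Eventually.of_forall fun r => ?_)
  simp only [map_mul, Complex.conj_ofReal]
  ring

theorem main_far {p m : ℝ} (h3 : 3 < p) (h4 : p < 4) (hm : 0 < m) : ∃ C : ℝ, 0 ≤ C ∧
    ∀ (κ : ℝ → ℝ → ℂ) (R μ : ℝ), 1 ≤ R → R⁻¹ ≤ μ → μ ≤ 1 → Kr κ →
      (∀ r s, r ∉ Icc R (2 * R) → κ r s = 0) → (∀ r s, ‖κ r s‖ ^ 2 ≤ (R * μ)⁻¹) →
      (∀ τ s s', ‖KK κ τ s s'‖ * |(s - s') * (s + s' - τ)| ≤ 192 * μ / (R ^ 2 * m)) →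
      Bnd p κ (C * R ^ (-((p - 1) / 2))) := by
  have h0 : 0 < p - 3 := by linarith
  obtain ⟨t, ht0, ht4⟩ : ∃ t : ℝ, 0 < t ∧ t ^ 4 = min 1 m :=
    ⟨(min 1 m) ^ ((4 : ℕ) : ℝ)⁻¹, Real.rpow_pos_of_pos (lt_min one_pos hm) _,
      Real.rpow_inv_natCast_pow (lt_min one_pos hm).le (by norm_num)⟩
  have ht1 : t ≤ 1 := (pow_le_one_iff_of_nonneg ht0.le (by norm_num : 4 ≠ 0)).1
    (ht4.trans_le (min_le_left _ _))
  have hn : ‖(t : ℂ)‖ = t := by rw [Complex.norm_real, Real.norm_of_nonneg ht0.le]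
  refine ⟨t⁻¹ ^ p * (192 * (2 / ((p - 3) / 8)) ^ 2) ^ ((p - 2) / 2), by positivity,
    fun κ R μ hR hμ hμ1 hκ hs hb hk => ?_⟩
  have hR0 : 0 < R := by linarith
  have hμ0 : 0 < μ := (inv_pos.2 hR0).trans_le hμ
  have b := pcm_gen h3 h4 hR hμ hμ1 (hκ.const_mul (t : ℂ))
    (fun r s h => by rw [hs r s h, mul_zero]) (fun r s => by
      rw [norm_mul, hn, mul_pow]
      exact (mul_le_of_le_one_left (sq_nonneg _) (pow_le_one₀ ht0.le ht1)).trans (hb r s))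
    fun τ s s' => by
      rw [rmf_kk, norm_mul, norm_pow, hn, mul_assoc, ht4]
      refine (mul_le_mul (min_le_right _ _) (hk τ s s') (by positivity) hm.le).trans_eq ?_
      field_simp
  have b' := b.const_mul (c := ((t : ℂ))⁻¹) (C := t⁻¹) (by linarith) (by rw [norm_inv, hn])
  rw [mul_assoc]
  refine b'.congr fun r s _ => ?_
  rw [← mul_assoc, inv_mul_cancel₀ (Complex.ofReal_ne_zero.2 ht0.ne'), one_mul]

theorem main_eq {p q β : ℝ} (h3 : 3 < p) (h4 : p < 4) (hq : 0 < q) (hβ : 0 < β) : ∃ C : ℝ, 0 ≤ C ∧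
    ∀ (κ : ℝ → ℝ → ℂ) (R μ : ℝ), 1 ≤ R → 0 < μ → μ ≤ 1 → β ≤ R * μ ^ 3 → Kr κ →
      (∀ r s, r ∉ Icc R (2 * R) → κ r s = 0) → (∀ r s, ‖κ r s‖ ^ 2 ≤ (R * μ)⁻¹) →
      (∀ s, ∫⁻ r, ‖κ r s‖ₑ ^ (2 : ℝ) ≤ ENNReal.ofReal (μ / β)) →
      (∀ τ s s', ‖KK κ τ s s'‖ * |(s - s') * (s + s' - τ)| ≤ 192 * μ / (R ^ 2 * (q * μ ^ 2))) →
      Bnd p κ (C * R ^ (-((p - 1) / 2))) := by
  obtain ⟨ε, hε⟩ : ∃ ε : ℝ, ε = (p - 3) / 24 := ⟨_, rfl⟩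
  have hε0 : 0 < ε := by rw [hε]; linarith
  have hε1 : ε < 1 := by rw [hε]; linarith
  obtain ⟨c, hc⟩ : ∃ c : ℝ, c = 192 / q * (q / β) ^ ε * (2 / ε) ^ 2 := ⟨_, rfl⟩
  have hc0 : 0 < c := by rw [hc]; positivity
  refine ⟨β⁻¹ ^ ((4 - p) / 2) * c ^ ((p - 2) / 2) * β⁻¹ ^ ((p - 3) / 3), by positivity,
    fun κ R μ hR hμ0 hμ1 hμ hκ hs hn h2 hk => ?_⟩
  have hR0 : 0 < R := by linarith
  have b2 : Bnd 2 κ (μ / β) := bnd_two hκ fun s _ => h2 s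
  have hK : 0 < 192 * μ / (R ^ 2 * (q * μ ^ 2)) := by positivity
  have hβ' : β ≤ R * μ := hμ.trans (mul_le_mul_of_nonneg_left
    (pow_le_of_le_one hμ0.le hμ1 (by norm_num)) hR0.le)
  have b4 := bnd_four (a := 1 - ε) (D := 192 * μ / (R ^ 2 * (q * μ ^ 2)) * (q / β * R ^ 2) ^ ε)
    hκ hs (by linarith) (by linarith) (by positivity) fun τ s s' => by
      refine pcm_mix (norm_nonneg _) (abs_nonneg _) hK (by positivity) hε0.le hε1.le ?_ (hk τ s s')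
      refine (pcm_triv hR0 hs hn τ s s').trans ?_
      have e : q / β * R ^ 2 * (192 * μ / (R ^ 2 * (q * μ ^ 2))) = 192 * β⁻¹ * μ⁻¹ := by
        field_simp
      have e' : (R * μ)⁻¹ ^ 2 * R = (R * μ)⁻¹ * μ⁻¹ := by field_simp
      have i1 : (R * μ)⁻¹ ≤ β⁻¹ := inv_anti₀ hβ hβ'
      have i2 : 0 < β⁻¹ := inv_pos.2 hβ
      rw [e, e']
      exact mul_le_mul_of_nonneg_right (by linarith) (inv_pos.2 hμ0).le
  rw [show 1 - (1 - ε) = ε by ring] at b4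
  refine (bnd_mid hκ (by linarith) h4.le (by positivity) (by positivity) b2 b4).mono ?_
  have e1 : 192 * μ / (R ^ 2 * (q * μ ^ 2)) * (q / β * R ^ 2) ^ ε * (2 / ε) ^ 2 =
      μ⁻¹ * c * R ^ (2 * ε - 2) := by
    rw [Real.rpow_sub hR0, Real.rpow_mul hR0.le, Real.rpow_two,
      Real.mul_rpow (by positivity) (by positivity), hc]
    field_simp
  have i1 : μ ^ ((4 - p) / 2) * μ⁻¹ ^ ((p - 2) / 2) ≤ β⁻¹ ^ ((p - 3) / 3) * R ^ ((p - 3) / 3) := by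
    rw [← Real.mul_rpow (by positivity) hR0.le, Real.inv_rpow hμ0.le, ← Real.rpow_neg hμ0.le,
      ← Real.rpow_add hμ0, show (4 - p) / 2 + -((p - 2) / 2) = -(3 : ℕ) * ((p - 3) / 3) by
        push_cast; ring, Real.rpow_mul hμ0.le, Real.rpow_neg hμ0.le, Real.rpow_natCast]
    refine Real.rpow_le_rpow (by positivity) ?_ (by linarith)
    rw [inv_le_iff_one_le_mul₀ (by positivity), mul_assoc, ← div_eq_inv_mul, one_le_div hβ]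
    exact hμ
  have i2 : R ^ ((p - 3) / 3) * R ^ ((2 * ε - 2) * ((p - 2) / 2)) ≤ R ^ (-((p - 1) / 2)) := by
    rw [← Real.rpow_add hR0]
    exact Real.rpow_le_rpow_of_exponent_le hR (by rw [hε]; nlinarith)
  rw [e1, Real.mul_rpow (by positivity) (by positivity), Real.mul_rpow (by positivity) hc0.le,
    ← Real.rpow_mul hR0.le, div_eq_mul_inv μ β, Real.mul_rpow hμ0.le (by positivity)]
  calc _ = β⁻¹ ^ ((4 - p) / 2) * c ^ ((p - 2) / 2) * (μ ^ ((4 - p) / 2) * μ⁻¹ ^ ((p - 2) / 2)) *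
        R ^ ((2 * ε - 2) * ((p - 2) / 2)) := by ring
    _ ≤ β⁻¹ ^ ((4 - p) / 2) * c ^ ((p - 2) / 2) * (β⁻¹ ^ ((p - 3) / 3) * R ^ ((p - 3) / 3)) *
        R ^ ((2 * ε - 2) * ((p - 2) / 2)) := by gcongr
    _ = β⁻¹ ^ ((4 - p) / 2) * c ^ ((p - 2) / 2) * β⁻¹ ^ ((p - 3) / 3) *
        (R ^ ((p - 3) / 3) * R ^ ((2 * ε - 2) * ((p - 2) / 2))) := by ring
    _ ≤ _ := by gcongr

end Vale.Agent.P122R
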