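import Vale.Agent.P122R.Base

/-!
Sig: the surface measure, as `P122.Sig`.  `prm P` is continuous, the density is continuous and bounded
by some `W ≥ 1` on `[a, b]`.  `volume_eq_prod`, `Measure.prod_restrict`, `lintegral_prod`,
`integral_prod`.  `gR_np`: `‖gR s‖ ^ p = ‖F s‖ ^ p w ^ p ≤ W ^ (p - 1) ‖F s‖ ^ p w`; by `EqR` the
integrand on the surface does not depend on the angle, and `1 ≤ 2 π`.  `gR_int`: the case `p = 1`.
-/

open MeasureTheory Set Real Filter
open scoped FourierTransform ENNReal ComplexConjugate Topology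

namespace Vale.Agent.P122R

open Vale.Agent.P117 (Np pt rho)
open Vale.Agent.P122 hiding E3 rot

variable {P P1 P2 : ℝ → ℝ} {q M : ℝ}

variable {a b : ℝ} {k : ℤ} {f : E3 → ℂ}

theorem rsig_prm (h : Cur P a b) : Continuous (prm P) := by
  have h1 := h.sm.continuous
  unfold prm
  fun_prop

theorem rsig_w (h : Cur P a b) : Continuous fun s => √(P s + deriv P s ^ 2 / 4) := by
  have h1 := h.sm.continuous
  have h2 : Continuous (deriv P) := h.sm.continuous_deriv (by norm_num)
  fun_prop

theorem rsig_dens (h : Cur P a b) :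
    Measurable fun z : ℝ × ℝ => ENNReal.ofReal √(P z.1 + deriv P z.1 ^ 2 / 4) :=
  ((rsig_w h).measurable.comp measurable_fst).ennreal_ofReal

theorem rsig_bd (h : Cur P a b) : ∃ W : ℝ, 1 ≤ W ∧ ∀ s ∈ Icc a b, √(P s + deriv P s ^ 2 / 4) ≤ W := by
  obtain ⟨W, hW⟩ := isCompact_Icc.exists_bound_of_continuousOn (rsig_w h).continuousOn
  exact ⟨max 1 W, le_max_left _ _, fun s hs =>
    ((le_abs_self _).trans (hW s hs)).trans (le_max_right _ _)⟩

theorem rsig_lint (h : Cur P a b) {F : E3 → ℝ≥0∞} (hF : Measurable F) : ∫⁻ ξ, F ξ ∂sigR P a b =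
    ∫⁻ s in Icc a b, ∫⁻ θ in Ioc (-π) π,
      ENNReal.ofReal √(P s + deriv P s ^ 2 / 4) * F (prm P (s, θ)) := by
  have h1 := hF.comp (rsig_prm h).measurable
  rw [sigR, lintegral_map hF (rsig_prm h).measurable,
    lintegral_withDensity_eq_lintegral_mul _ (rsig_dens h) (g := fun u => F (prm P u)) h1,
    Measure.volume_eq_prod, ← Measure.prod_restrict]
  exact lintegral_prod _ ((rsig_dens h).mul h1).aemeasurable

theorem finite_sigR (h : Cur P a b) : IsFiniteMeasure (sigR P a b) := by
  obtain ⟨W, -, hW⟩ := rsig_bd h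
  refine ⟨?_⟩
  rw [← lintegral_one, rsig_lint h measurable_const]
  calc _ ≤ ∫⁻ _ in Icc a b, ENNReal.ofReal W * volume (Ioc (-π) π) := by
        refine setLIntegral_mono' measurableSet_Icc fun s hs => ?_
        rw [setLIntegral_const, mul_one]
        exact mul_le_mul_left (ENNReal.ofReal_le_ofReal (hW s hs)) _
    _ < ⊤ := by
        rw [setLIntegral_const]
        exact ENNReal.mul_lt_top (ENNReal.mul_lt_top ENNReal.ofReal_lt_top measure_Ioc_lt_top)
          measure_Icc_lt_top

theorem integral_sigR (h : Cur P a b) {F : E3 → ℂ} (hF : Measurable F)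
    (hi : Integrable F (sigR P a b)) : ∫ ξ, F ξ ∂sigR P a b = ∫ s in Icc a b,
      ((√(P s + deriv P s ^ 2 / 4) : ℝ) : ℂ) * ∫ θ in (-π)..π, F (prm P (s, θ)) := by
  have hm := (rsig_prm h).measurable
  rw [sigR, integrable_map_measure hF.aestronglyMeasurable hm.aemeasurable,
    integrable_withDensity_iff_integrable_smul' (rsig_dens h)
      (Eventually.of_forall fun _ => ENNReal.ofReal_lt_top), Measure.volume_eq_prod,
    ← Measure.prod_restrict] at hi
  rw [sigR, integral_map hm.aemeasurable hF.aestronglyMeasurable,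
    integral_withDensity_eq_integral_toReal_smul (rsig_dens h)
      (Eventually.of_forall fun _ => ENNReal.ofReal_lt_top), Measure.volume_eq_prod,
    ← Measure.prod_restrict]
  refine (integral_prod _ hi).trans (integral_congr_ae (Eventually.of_forall fun s => ?_))
  simp only [ENNReal.toReal_ofReal (Real.sqrt_nonneg _), Complex.real_smul, Function.comp,
    integral_const_mul, intervalIntegral.integral_of_le (neg_le_self pi_pos.le)]

theorem measurable_gR (h : Cur P a b) (hf : Measurable f) : Measurable (gR P a b f) := by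
  exact ((hf.comp ((rsig_prm h).measurable.comp (measurable_id.prodMk measurable_const))).mul
    (Complex.measurable_ofReal.comp (rsig_w h).measurable)).indicator measurableSet_Icc

theorem gR_np (h : Cur P a b) {p : ℝ} (hp : 1 ≤ p) : ∃ W : ℝ, ∀ (k : ℤ) (f : E3 → ℂ),
    Measurable f → EqR k P a b f →
      Np volume p (gR P a b f) ≤ ENNReal.ofReal W * Np (sigR P a b) p f := by
  obtain ⟨W, h1, hW⟩ := rsig_bd h
  have hp0 : 0 < p := by linarith
  refine ⟨W ^ (p - 1), fun k f hf he => ?_⟩
  rw [Np, Np, rsig_lint h (hf.enorm.pow_const p), ← lintegral_const_mul' _ _ ENNReal.ofReal_ne_top,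
    ← lintegral_indicator measurableSet_Icc]
  refine lintegral_mono fun s => ?_
  by_cases hs : s ∈ Icc a b
  · have h2 : ∀ θ, ‖f (prm P (s, θ))‖ₑ = ‖f (prm P (s, 0))‖ₑ := fun θ => by
      rw [he θ s hs, enorm_mul, ← ofReal_norm, norm_ex, ENNReal.ofReal_one, one_mul]
    have h3 := Real.sqrt_nonneg (P s + deriv P s ^ 2 / 4)
    have h4 : (1 : ℝ≥0∞) ≤ volume (Ioc (-π) π) := by
      rw [Real.volume_Ioc]
      exact ENNReal.one_le_ofReal.2 (by linarith [Real.pi_gt_three])
    rw [indicator_of_mem hs, gR, indicator_of_mem hs]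
    simp only [h2]
    rw [setLIntegral_const, enorm_mul, ENNReal.mul_rpow_of_nonneg _ _ hp0.le, mul_comm,
      ← ofReal_norm (_ : ℂ), Complex.norm_real, Real.norm_of_nonneg h3,
      ENNReal.ofReal_rpow_of_nonneg h3 hp0.le]
    refine le_trans ?_ (mul_le_mul_right (le_mul_of_one_le_right' h4) _)
    rw [← mul_assoc, ← ENNReal.ofReal_mul (by positivity)]
    refine mul_le_mul_left (ENNReal.ofReal_le_ofReal ?_) _
    rw [show p = p - 1 + 1 by ring, Real.rpow_add_one' h3 (by linarith), add_sub_cancel_right]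
    exact mul_le_mul_of_nonneg_right (Real.rpow_le_rpow h3 (hW s hs) (by linarith)) h3
  · rw [gR, indicator_of_notMem hs, enorm_zero, ENNReal.zero_rpow_of_pos hp0]
    exact zero_le

theorem gR_int (h : Cur P a b) (hf : Measurable f) (hi : Integrable f (sigR P a b))
    (he : EqR k P a b f) : Integrable (gR P a b f) := by
  obtain ⟨W, hW⟩ := gR_np h le_rfl
  have h1 := hW k f hf he
  simp only [Np, ENNReal.rpow_one] at h1
  exact ⟨(measurable_gR h hf).aestronglyMeasurable,
    h1.trans_lt (ENNReal.mul_lt_top ENNReal.ofReal_lt_top hi.2)⟩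

end Vale.Agent.P122R
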