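import Vale.Agent.P122R.Core
import Vale.Agent.P122R.Sig

/-!
Main: `ext_eqR` as `P122.ext_eq` (`pol_arg`, `circ`, `integral_sigR`, `P117.inner_e3`, `cos_sub`, `TT_eq`,
no substitution needed).  `mainR` as `P122.main` (`main_cyl`, `coreG`, `gR_np`, `gR_int`,
`finite_sigR`); `EqR` from the hypothesis at `z = (s, 0)`: `rot θ (prm P (s, 0)) = prm P (s, θ)`.
-/

open MeasureTheory Set Real Filter
open scoped FourierTransform ENNReal ComplexConjugate Topology

namespace Vale.Agent.P122R

open Vale.Agent.P117 (Np pt rho)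
open Vale.Agent.P122 hiding E3 rot

variable {P P1 P2 : ℝ → ℝ} {q M : ℝ}

open scoped RealInnerProductSpace in
theorem ext_eqR {a b : ℝ} {k : ℤ} {f : E3 → ℂ} (h : Cur P a b) (hf : Measurable f)
    (hi : Integrable f (sigR P a b)) (he : EqR k P a b f) (x : E3) :
    ‖extR (sigR P a b) f x‖ = ‖TT (kP (-k) P) (gR P a b f) (2 * π * rho x, x 2)‖ := by
  obtain ⟨α, h0, h1⟩ := pol_arg x
  obtain ⟨c, hc, hcirc⟩ := circ k α
  have hm : Measurable fun ξ : E3 => f ξ * ex (2 * π * ⟪x, ξ⟫) :=
    hf.mul (continuous_ex.comp (by fun_prop)).measurable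
  have hF : Integrable (fun ξ : E3 => f ξ * ex (2 * π * ⟪x, ξ⟫)) (sigR P a b) :=
    hi.norm.mono' hm.aestronglyMeasurable (ae_of_all _ fun ξ => by rw [norm_mul, norm_ex, mul_one])
  have e : extR (sigR P a b) f x = ∫ ξ, f ξ * ex (2 * π * ⟪x, ξ⟫) ∂sigR P a b := rfl
  have e1 : ∀ z : ℂ, ‖c * z‖ = ‖z‖ := fun z => by rw [norm_mul, hc, one_mul]
  refine Eq.trans (congrArg norm ?_) (e1 _)
  rw [e, integral_sigR h hm hF, TT_eq, ← integral_const_mul, ← integral_indicator measurableSet_Icc]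
  refine integral_congr_ae (ae_of_all _ fun s => ?_)
  simp only
  by_cases hs : s ∈ Icc a b
  · have e3 : ∀ θ, 2 * π * ⟪x, prm P (s, θ)⟫ =
        2 * π * (s * x 2) + 2 * π * rho x * √(P s) * cos (θ - α) := fun θ => by
      have e4 : ⟪x, prm P (s, θ)⟫ =
          x 0 * (√(P s) * cos θ) + x 1 * (√(P s) * sin θ) + x 2 * s := P117.inner_e3 _ _
      rw [e4, cos_sub]
      linear_combination 2 * π * √(P s) * cos θ * h0 + 2 * π * √(P s) * sin θ * h1
    have e5 : ∫ θ in (-π)..π, f (prm P (s, θ)) * ex (2 * π * ⟪x, prm P (s, θ)⟫) =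
        f (prm P (s, 0)) * ex (2 * π * (s * x 2)) * (c * bJ (-k) (2 * π * rho x * √(P s))) := by
      rw [← hcirc, ← intervalIntegral.integral_const_mul]
      refine intervalIntegral.integral_congr fun θ _ => ?_
      simp only
      rw [e3, ex_add, he θ s hs]
      ring
    rw [indicator_of_mem hs, gR, indicator_of_mem hs, e5, kP]
    ring
  · rw [indicator_of_notMem hs, gR, indicator_of_notMem hs, mul_zero, mul_zero, mul_zero]

theorem mainR {a b p : ℝ} (h : Cur P a b) (h3 : 3 < p) : ∃ C : NNReal, ∀ (k : ℤ) (f : E3 → ℂ),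
    Measurable f → MemLp f (ENNReal.ofReal p) (sigR P a b) →
    (∀ (θ : ℝ) (z : ℝ × ℝ), z.1 ∈ Icc a b →
      f (rot θ (prm P z)) = Complex.exp (k * θ * Complex.I) * f (prm P z)) →
    eLpNorm (extR (sigR P a b) f) (ENNReal.ofReal p) volume ≤
      C * eLpNorm f (ENNReal.ofReal p) (sigR P a b) := by
  obtain ⟨C, hC, H⟩ := coreG h h3
  obtain ⟨W, hW⟩ := gR_np h (p := p) (by linarith)
  have hp : 0 < p := by linarith
  refine ⟨((C * max W 0) ^ (1 / p)).toNNReal, fun k f hf hm he => ?_⟩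
  have hE : EqR k P a b f := fun θ s hs => by
    have h2 := he θ (s, 0) hs
    have e1 : rot θ (prm P (s, 0)) = prm P (s, θ) := by
      ext i
      fin_cases i <;> simp [rot, prm, mul_comm]
    rw [← e1, h2, ex]
    simp
  have := finite_sigR h
  have hi : Integrable f (sigR P a b) := hm.integrable (ENNReal.one_le_ofReal.2 (by linarith))
  have hP := h.sm.continuous
  have hk : Measurable (Function.uncurry (kP (-k) P)) :=
    ((continuous_bJ (-k)).comp (f := fun z : ℝ × ℝ => z.1 * √(P z.2)) (by fun_prop)).measurable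
  have h1 : Np volume p (extR (sigR P a b) f) ≤
      ENNReal.ofReal (C * max W 0) * Np (sigR P a b) p f := by
    have h2 := (main_cyl ((measurable_TT hk (measurable_gR h hf)).enorm.pow_const p)).trans
      (H (-k) _ (measurable_gR h hf) (gR_int h hf hi hE) fun s hs => indicator_of_notMem hs _)
    rw [ENNReal.ofReal_mul hC, mul_assoc]
    refine le_trans (le_of_eq (lintegral_congr fun x => ?_))
      (h2.trans (mul_le_mul_right ((hW k f hf hE).trans
        (mul_le_mul_left (ENNReal.ofReal_le_ofReal (le_max_left _ _)) _)) _))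
    simp only [← ofReal_norm, ext_eqR h hf hi hE]
  have h0 : ENNReal.ofReal p ≠ 0 := (ENNReal.ofReal_pos.2 hp).ne'
  rw [eLpNorm_eq_lintegral_rpow_enorm_toReal h0 ENNReal.ofReal_ne_top,
    eLpNorm_eq_lintegral_rpow_enorm_toReal h0 ENNReal.ofReal_ne_top, ENNReal.toReal_ofReal hp.le]
  refine (ENNReal.rpow_le_rpow h1 (by positivity)).trans_eq ?_
  rw [ENNReal.mul_rpow_of_nonneg _ _ (by positivity),
    ENNReal.ofReal_rpow_of_nonneg (by positivity) (by positivity)]
  rfl

end Vale.Agent.P122R
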