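import Vale.Agent.P122R.EP

/-!
PcE: remainder pieces, as `P122.piece_err` (`pce_two` at `P s`, `inf_pole`, `inf_eq`, `bnd_two`,
`bnd_inf`, `kr_cp`, `kr_kn`), `P122.piece_bot` (`D = C K / R ^ 2` by `Pf.vol`) and `P122.piece_zero`.
-/

open MeasureTheory Set Real Filter
open scoped FourierTransform ENNReal ComplexConjugate Topology

namespace Vale.Agent.P122R

open Vale.Agent.P117 (Np pt rho)
open Vale.Agent.P122 hiding E3 rot

variable {P P1 P2 : ℝ → ℝ} {q M : ℝ}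

theorem rpce_gen (h : Pf P P1 P2 q M) {p C A B a b V : ℝ} {N : ℝ → ℂ} (hp : 2 ≤ p) (hC : 0 ≤ C)
    (hV : 0 ≤ V) (hκ : Kr (kn N A B a b))
    (hv : volume {s ∈ Icc (0 : ℝ) 1 | P s ≤ b} ≤ ENNReal.ofReal V)
    (hN : ∀ r s, A ≤ r → r < B → s ∈ Icc (0 : ℝ) 1 → ‖N (r * √s)‖ ≤ C) :
    Bnd p (cp (kn N A B a b) P) ((C * V) ^ (p - 2) * (C ^ 2 * (B - A))) := by
  have k : ∀ r s, s ∈ Icc (0 : ℝ) 1 → cp (kn N A B a b) P r s = 0 ∨
      (r ∈ Ico A B ∧ s ∈ {s ∈ Icc (0 : ℝ) 1 | P s ≤ b} ∧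
        ‖cp (kn N A B a b) P r s‖ₑ ≤ ENNReal.ofReal C) := fun r s hs => by
    rw [cp_in r hs]
    unfold kn
    split_ifs with hc
    · refine Or.inr ⟨⟨hc.1, hc.2.1⟩, ⟨hs, hc.2.2.2⟩, ?_⟩
      rw [← ofReal_norm]
      exact ENNReal.ofReal_le_ofReal (hN r _ hc.1 hc.2.1 ⟨h.p0 s hs, h.p1 s hs⟩)
    · exact Or.inl rfl
  refine bnd_inf hp (mul_nonneg hC hV) (bnd_two (kr_cp hκ h.meas) fun s hs => ?_) fun r => ?_
  · have h1 : ∀ r, ‖cp (kn N A B a b) P r s‖ₑ ^ (2 : ℝ) ≤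
        (Ico A B).indicator (fun _ => ENNReal.ofReal (C ^ 2)) r := fun r => by
      rcases k r s hs with e | ⟨e1, -, e2⟩
      · simp [e]
      · rw [indicator_of_mem e1, ENNReal.rpow_two, ENNReal.ofReal_pow hC]
        exact pow_le_pow_left' e2 2
    refine (lintegral_mono h1).trans_eq ?_
    rw [lintegral_indicator_const measurableSet_Ico, volume_Ico,
      ENNReal.ofReal_mul (sq_nonneg C)]
  · have h1 : ∀ s ∈ Icc (0 : ℝ) 1, ‖cp (kn N A B a b) P r s‖ₑ ≤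
        {s ∈ Icc (0 : ℝ) 1 | P s ≤ b}.indicator (fun _ => ENNReal.ofReal C) s := fun s hs => by
      rcases k r s hs with e | ⟨-, e1, e2⟩
      · simp [e]
      · rwa [indicator_of_mem e1]
    refine ((setLIntegral_mono' measurableSet_Icc h1).trans
      (setLIntegral_le_lintegral _ _)).trans ((lintegral_indicator_const_le _ _).trans ?_)
    rw [ENNReal.ofReal_mul hC]
    exact mul_le_mul_right hv _

theorem piece_errR (h : Pf P P1 P2 q M) {p C : ℝ} (h3 : 3 < p) (hC : 0 < C) : ∃ C' : ℝ, 0 ≤ C' ∧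
    ∀ (ν R σ : ℝ) (N : ℝ → ℂ), 1 ≤ R → 0 < σ → 2 * σ ≤ 1 → Sml C ν (2 * R) N →
      Bnd p (cp (kn N R (2 * R) (σ ^ 2) (4 * σ ^ 2)) P) (C' * R ^ (-((p - 1) / 2))) := by
  obtain ⟨K1, hK1, H1⟩ := inf_pole h
  obtain ⟨K2, hK2, H2⟩ := inf_eq h
  obtain ⟨K, hK, k1, k2⟩ : ∃ K : ℝ, 0 < K ∧ K1 ≤ K ∧ K2 ≤ K :=
    ⟨max K1 K2, lt_max_of_lt_left hK1, le_max_left _ _, le_max_right _ _⟩
  refine ⟨(K * C) ^ (p - 3) * (2 * K * π * C ^ 3), by positivity, fun ν R σ N hR hσ h2 hN => ?_⟩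
  have hR0 : 0 < R := one_pos.trans_le hR
  obtain ⟨L, hL, hL3⟩ : ∃ L : ℝ, 0 < L ∧ L ^ 3 = R * σ :=
    ⟨(R * σ) ^ ((3 : ℕ) : ℝ)⁻¹, by positivity,
      Real.rpow_inv_natCast_pow (by positivity) (by norm_num)⟩
  have hκ : Kr (cp (kn N R (2 * R) (σ ^ 2) (4 * σ ^ 2)) P) :=
    kr_cp (kr_kn hN hR0.le le_rfl (by nlinarith)) h.meas
  have hb2 : Bnd 2 (cp (kn N R (2 * R) (σ ^ 2) (4 * σ ^ 2)) P) (2 * C ^ 2 * (π / (L * σ))) :=
    bnd_two hκ fun s hs => by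
      simp only [cp_in _ hs]
      exact pce_two hC hR0 hσ h2 hL hL3 hN (P s)
  have hD : 0 ≤ K * C * (L * σ / R) := by positivity
  have hi : ∀ r, ∫⁻ s in Icc (0 : ℝ) 1, ‖cp (kn N R (2 * R) (σ ^ 2) (4 * σ ^ 2)) P r s‖ₑ ≤
      ENNReal.ofReal (K * C * (L * σ / R)) := fun r => by
    rcases le_or_gt (16 * M * σ ^ 2) q with hq | hq
    · exact (H1 C ν R σ L r N hC hR0 hσ h2 hL hL3 hN hq).trans
        (ENNReal.ofReal_le_ofReal (by gcongr))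
    · exact (H2 C ν R σ L r N hC hR0 hσ h2 hL hL3 hN hq).trans
        (ENNReal.ofReal_le_ofReal (by gcongr))
  refine (bnd_inf (by linarith) hD hb2 hi).mono ?_
  have hL2 : L ^ 2 ≤ R := by
    rcases le_total L 1 with h | h
    · nlinarith
    · have : L ^ 2 * 1 ≤ L ^ 2 * L := by gcongr
      nlinarith
  have h1 : L * σ / R ≤ R ^ (-(1 / 2 : ℝ)) := by
    have hs : L ≤ √R := Real.le_sqrt_of_sq_le hL2
    have hq : 0 < √R := Real.sqrt_pos.2 hR0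
    rw [Real.rpow_neg hR0.le, ← Real.sqrt_eq_rpow, div_le_iff₀ hR0,
      inv_mul_eq_div, Real.div_sqrt]
    nlinarith
  have hDp : 0 < K * C * (L * σ / R) := by positivity
  have e1 : (K * C * (L * σ / R)) ^ (p - 2) =
      (K * C * (L * σ / R)) ^ (p - 3) * (K * C * (L * σ / R)) := by
    rw [← Real.rpow_add_one hDp.ne']; congr 1; ring
  have h4 : (K * C * (L * σ / R)) ^ (p - 3) ≤ (K * C) ^ (p - 3) * R ^ (-((p - 3) / 2)) := by
    refine (Real.rpow_le_rpow hD (mul_le_mul_of_nonneg_left h1 (by positivity))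
      (by linarith)).trans (le_of_eq ?_)
    rw [Real.mul_rpow (by positivity) (by positivity), ← Real.rpow_mul hR0.le]
    congr 2; ring
  have e2 : R ^ (-((p - 1) / 2)) = R ^ (-((p - 3) / 2)) * R⁻¹ := by
    rw [← Real.rpow_neg_one, ← Real.rpow_add hR0]; congr 1; ring
  have e3 : K * C * (L * σ / R) * (2 * C ^ 2 * (π / (L * σ))) = 2 * K * π * C ^ 3 * R⁻¹ := by
    field_simp
  rw [e1, e2, mul_assoc, e3]
  calc _ ≤ (K * C) ^ (p - 3) * R ^ (-((p - 3) / 2)) * (2 * K * π * C ^ 3 * R⁻¹) := by gcongr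
    _ = _ := by ring

theorem piece_botR (h : Pf P P1 P2 q M) {p C : ℝ} (h3 : 3 < p) (hC : 0 < C) : ∃ C' : ℝ, 0 ≤ C' ∧
    ∀ (ν R : ℝ) (N : ℝ → ℂ), 1 ≤ R → Sml C ν (2 * R) N →
      Bnd p (cp (kn N R (2 * R) (-1) (R ^ 2)⁻¹) P) (C' * R ^ (-((p - 1) / 2))) := by
  obtain ⟨K, hK, H⟩ := h.vol
  refine ⟨(C * K) ^ (p - 2) * C ^ 2, by positivity, fun ν R N hR hN => ?_⟩
  have hR0 : 0 < R := one_pos.trans_le hR
  have hb : (R ^ 2)⁻¹ ≤ 1 := inv_le_one_of_one_le₀ (one_le_pow₀ hR)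
  refine (rpce_gen h (by linarith) hC.le (by positivity) (kr_kn hN hR0.le le_rfl hb)
    (H _ (by positivity))
    fun r s h1 h2 hs => hN.b0 _ (mul_nonneg (hR0.le.trans h1) (sqrt_nonneg s)) ?_).mono ?_
  · exact (mul_le_of_le_one_right (hR0.le.trans h1) (sqrt_le_one.2 hs.2)).trans h2.le
  · have e1 : ((R ^ 2)⁻¹) ^ (p - 2) * R = R ^ (-2 * (p - 2) + 1) := by
      rw [rpow_add hR0, rpow_one, rpow_mul hR0.le, rpow_neg hR0.le, rpow_two]
    have e2 : R ^ (-2 * (p - 2) + 1) ≤ R ^ (-((p - 1) / 2)) :=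
      rpow_le_rpow_of_exponent_le hR (by linarith)
    rw [← mul_assoc C, mul_rpow (by positivity) (by positivity)]
    refine le_of_eq_of_le ?_ (mul_le_mul_of_nonneg_left (e1.trans_le e2) (by positivity))
    ring

theorem piece_zeroR (h : Pf P P1 P2 q M) {p : ℝ} (h3 : 3 < p) (k : ℤ) :
    Bnd p (cp (kn (bJ k) 0 1 (-1) 1) P) (7 ^ p) := by
  have hv : volume {s ∈ Icc (0 : ℝ) 1 | P s ≤ 1} ≤ ENNReal.ofReal 1 := by
    refine (measure_mono (sep_subset _ _)).trans_eq ?_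
    rw [volume_Icc, sub_zero]
  refine (rpce_gen h (C := 7) (by linarith) (by norm_num) zero_le_one (kr_knJ k 0 1 (-1) 1) hv
    fun r s _ _ _ => norm_bJ_le _ _).mono (le_of_eq ?_)
  rw [mul_one, sub_zero, mul_one, ← rpow_two, ← rpow_add (by norm_num), sub_add_cancel]

end Vale.Agent.P122R
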