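import Vale.Agent.P122R.Ker
import Vale.Agent.P122R.MF

/-!
PcM: main pieces.  `len`: for `r ≤ r'` in the set, `ν ^ 2 / r ^ 2 - ν ^ 2 / r' ^ 2 = uu r' ^ 2 - uu r ^ 2 ≤
3 μ ^ 2` (`ker_usq`, `ker_pos`) and it is at least `ν ^ 2 (r' - r) / (8 R ^ 3)`.  Let `T = q / (4 M)`.
Case `ν ^ 2 ≤ T R ^ 2 / 2`: `main_far` with `m = min (q / 2) (q T / 8)`; `kk_cp` needs the lower bound:
if `8 μ ^ 2 ≤ T` then `P x = uu ^ 2 + ν ^ 2 / r ^ 2 ≤ T` and `qpole`, otherwise `qlow` gives `q μ ^ 2`.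
Case `T R ^ 2 / 2 < ν ^ 2`: `main_eq` with `β = T / 48`, `m = q μ ^ 2` (`qlow`), `len`, `norm_km`; if
`R μ ^ 3 < β` the kernel vanishes (on `Pc`, `8 ν ^ 2 < ww ^ 3 = (r uu) ^ 3 ≤ 64 R ^ 3 μ ^ 3`, `ww_mul`) and
`Bnd` holds for the zero kernel (`Bnd.sum` over the empty set, `Bnd.congr`, `Bnd.mono`).  Conjugates:
`Kr.conj`, `pcm_conj`.
-/

open MeasureTheory Set Real Filter
open scoped FourierTransform ENNReal ComplexConjugate Topology

namespace Vale.Agent.P122R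

open Vale.Agent.P117 (Np pt rho)
open Vale.Agent.P122 hiding E3 rot

variable {P P1 P2 : ℝ → ℝ} {q M : ℝ}

theorem len {ν R μ : ℝ} (hν : 0 < ν) (hR : 0 < R) (hμ : 0 < μ) (x : ℝ) :
    volume {r | Pc ν R μ r x} ≤ ENNReal.ofReal (24 * μ ^ 2 * R ^ 3 / ν ^ 2) := by
  have key : ∀ r r', Pc ν R μ r x → Pc ν R μ r' x → r ≤ r' →
      r' - r ≤ 24 * μ ^ 2 * R ^ 3 / ν ^ 2 := by
    intro r r' h h' hr
    have r0 : 0 < r := hR.trans_le h.1
    have r0' : 0 < r' := hR.trans_le h'.1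
    have e := ker_usq (ker_pos hμ h.2.2.1)
    have e' := ker_usq (ker_pos hμ h'.2.2.1)
    have i1 : μ ^ 2 ≤ uu ν r x ^ 2 := pow_le_pow_left₀ hμ.le h.2.2.1 2
    have i2 : uu ν r' x ^ 2 ≤ (2 * μ) ^ 2 :=
      pow_le_pow_left₀ (hμ.le.trans h'.2.2.1) h'.2.2.2.1.le 2
    have i3 : ν ^ 2 / r ^ 2 - ν ^ 2 / r' ^ 2 ≤ 3 * μ ^ 2 := by nlinarith
    have e2 : ν ^ 2 / r ^ 2 - ν ^ 2 / r' ^ 2 =
        ν ^ 2 * (r' - r) * (r' + r) / (r ^ 2 * r' ^ 2) := by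
      field_simp
      ring
    rw [e2, div_le_iff₀ (by positivity)] at i3
    have i4 : r ^ 2 * r' ≤ 8 * R ^ 3 := by
      have := mul_le_mul (pow_le_pow_left₀ r0.le h.2.1.le 2) h'.2.1.le r0'.le (by positivity)
      linarith [show (2 * R) ^ 2 * (2 * R) = 8 * R ^ 3 by ring]
    have i5 : ν ^ 2 * (r' - r) * r' ≤ 3 * μ ^ 2 * (8 * R ^ 3) * r' := by
      have a1 : ν ^ 2 * (r' - r) * r' ≤ ν ^ 2 * (r' - r) * (r' + r) :=
        mul_le_mul_of_nonneg_left (by linarith) (mul_nonneg (by positivity) (by linarith))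
      have a2 : 3 * μ ^ 2 * (r ^ 2 * r') * r' ≤ 3 * μ ^ 2 * (8 * R ^ 3) * r' := by gcongr
      linarith [show 3 * μ ^ 2 * (r ^ 2 * r' ^ 2) = 3 * μ ^ 2 * (r ^ 2 * r') * r' by ring]
    rw [le_div_iff₀ (by positivity)]
    linarith [le_of_mul_le_mul_right i5 r0']
  refine (Real.volume_le_diam _).trans (Metric.ediam_le fun r h r' h' => ?_)
  rw [edist_dist, Real.dist_eq]
  refine ENNReal.ofReal_le_ofReal ?_
  rcases le_total r r' with hr | hr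
  · rw [abs_sub_comm, abs_of_nonneg (by linarith)]
    exact key r r' h h' hr
  · rw [abs_of_nonneg (by linarith)]
    exact key r' r h' h hr

theorem rpcm_zero {p b : ℝ} (hp : 0 < p) (hb : 0 ≤ b) {κ : ℝ → ℝ → ℂ} (h : ∀ r s, κ r s = 0) :
    Bnd p κ b := by
  have h1 := Bnd.sum (b := 0) hp (∅ : Finset ℕ) (K := fun _ => κ) (by simp) (by simp)
  exact (h1.congr fun r s _ => by simp [h]).mono (by simpa using hb)

theorem rpcm_two {ν R μ : ℝ} (hν : 0 < ν) (hR : 0 < R) (hμ : 0 < μ) (s : ℝ) :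
    ∫⁻ r, ‖cp (km ν R μ) P r s‖ₑ ^ (2 : ℝ) ≤ ENNReal.ofReal (24 * μ * R ^ 2 / ν ^ 2) := by
  by_cases hs : s ∈ Icc (0 : ℝ) 1
  · have h1 : ∀ r, ‖cp (km ν R μ) P r s‖ₑ ^ (2 : ℝ) ≤
        {r | Pc ν R μ r (P s)}.indicator (fun _ => ENNReal.ofReal (R * μ)⁻¹) r := by
      intro r
      rw [cp_in r hs]
      by_cases hr : r ∈ {r | Pc ν R μ r (P s)}
      · rw [indicator_of_mem hr, ← ofReal_norm,
          ENNReal.ofReal_rpow_of_nonneg (norm_nonneg _) (by norm_num)]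
        refine ENNReal.ofReal_le_ofReal ?_
        rw [Real.rpow_two]
        exact norm_km hR hμ r _
      · have : km ν R μ r (P s) = 0 := if_neg hr
        rw [indicator_of_notMem hr, this]
        simp
    refine (lintegral_mono h1).trans ((lintegral_indicator_const_le _ _).trans ?_)
    refine (mul_le_mul_right (len hν hR hμ (P s)) _).trans ?_
    rw [← ENNReal.ofReal_mul (by positivity)]
    exact le_of_eq (by congr 1; field_simp)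
  · simp [cp_out _ hs]

theorem rpcm_van {ν R μ T : ℝ} (hν : 0 ≤ ν) (hR : 0 < R) (hμ : 0 < μ) (h1 : T * R ^ 2 / 2 < ν ^ 2)
    (h2 : R * μ ^ 3 < T / 48) (r x : ℝ) : km ν R μ r x = 0 := by
  refine if_neg fun h => ?_
  have r0 : 0 < r := hR.trans_le h.1
  have hx := ker_spos (ker_pos hμ h.2.2.1)
  obtain ⟨a1, a2⟩ := h.2.2.2.2
  rw [ww_mul r0 hx.le] at a2
  have i1 : ν ^ 2 ≤ (r * √x) ^ 2 := pow_le_pow_left₀ hν a1.le 2
  have u0 : 0 ≤ uu ν r x := hμ.le.trans h.2.2.1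
  have i2 : (r * uu ν r x) ^ 3 ≤ (2 * R * (2 * μ)) ^ 3 :=
    pow_le_pow_left₀ (by positivity) (mul_le_mul h.2.1.le h.2.2.2.1.le u0 (by positivity)) 3
  have i3 : R ^ 2 * (R * μ ^ 3) < R ^ 2 * (T / 48) := mul_lt_mul_of_pos_left h2 (by positivity)
  have i4 : 0 < R ^ 2 * (R * μ ^ 3) := by positivity
  have e : (2 * R * (2 * μ)) ^ 3 = 64 * (R ^ 2 * (R * μ ^ 3)) := by ring
  nlinarith

theorem rpcm_gen (h : Pf P P1 P2 q M) {p : ℝ} (h3 : 3 < p) (h4 : p < 4) : ∃ C : ℝ, 0 ≤ C ∧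
    ∀ ν R μ : ℝ, 0 ≤ ν → 1 ≤ R → R⁻¹ ≤ μ → μ ≤ 1 → ∀ κ : ℝ → ℝ → ℂ, Kr κ →
      (∀ r s, ‖κ r s‖ = ‖cp (km ν R μ) P r s‖) →
      (∀ τ s s', ‖KK κ τ s s'‖ = ‖KK (cp (km ν R μ) P) τ s s'‖) →
      Bnd p κ (C * R ^ (-((p - 1) / 2))) := by
  have hq := h.q0
  have hM := h.M0
  obtain ⟨T, hT⟩ : ∃ T, T = q / (4 * M) := ⟨_, rfl⟩
  have T0 : 0 < T := by rw [hT]; positivity
  have hTM : 4 * M * T = q := by rw [hT]; field_simp
  have m0 : 0 < min (q / 2) (q * T / 8) := lt_min (by positivity) (by positivity)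
  obtain ⟨C₁, hC₁, H₁⟩ := main_far h3 h4 m0
  obtain ⟨C₂, hC₂, H₂⟩ := main_eq (β := T / 48) h3 h4 hq (by positivity)
  refine ⟨C₁ + C₂, by positivity, fun ν R μ hν hR hμ hμ1 κ hκ hn hk => ?_⟩
  have hR0 : 0 < R := by linarith
  have hμ0 : 0 < μ := (inv_pos.2 hR0).trans_le hμ
  have hp : 0 ≤ R ^ (-((p - 1) / 2)) := by positivity
  have hs : ∀ r s, r ∉ Icc R (2 * R) → κ r s = 0 := by
    intro r s hr
    rw [← norm_eq_zero, hn]
    by_cases hs : s ∈ Icc (0 : ℝ) 1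
    · rw [cp_in r hs, km_van _ hr, norm_zero]
    · rw [cp_out r hs, norm_zero]
  have hb : ∀ r s, ‖κ r s‖ ^ 2 ≤ (R * μ)⁻¹ := by
    intro r s
    rw [hn]
    by_cases hs : s ∈ Icc (0 : ℝ) 1
    · rw [cp_in r hs]
      exact norm_km hR0 hμ0 r _
    · rw [cp_out r hs, norm_zero, zero_pow two_ne_zero]
      positivity
  have hlow : ∀ r, ∀ x ∈ Icc (0 : ℝ) 1, μ ≤ uu ν r (P x) →
      q * μ ^ 2 ≤ P1 x ^ 2 - 2 * P2 x * (P x - ν ^ 2 / r ^ 2) := by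
    intro r x hx h1
    have hc := ker_pos hμ0 h1
    refine le_trans ?_ (h.qlow hx (by positivity) hc)
    rw [← ker_usq hc]
    exact mul_le_mul_of_nonneg_left (pow_le_pow_left₀ hμ0.le h1 2) hq.le
  rcases le_or_gt (ν ^ 2) (T * R ^ 2 / 2) with hc | hc
  · refine (H₁ κ R μ hR hμ hμ1 hκ hs hb fun τ s s' => ?_).mono (by nlinarith)
    rw [hk]
    refine kk_cp h hν hR0 hμ0 m0 (fun r hr x hx h1 h2 => ?_) τ s s'
    rcases le_or_gt (8 * μ ^ 2) T with h8 | h8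
    · have hc' := ker_pos hμ0 h1
      refine (min_le_left _ _).trans (h.qpole hx (by positivity) hc' ?_)
      have e := ker_usq hc'
      have i1 : uu ν r (P x) ^ 2 ≤ (2 * μ) ^ 2 := pow_le_pow_left₀ (hμ0.le.trans h1) h2 2
      have i2 : ν ^ 2 / r ^ 2 ≤ T / 2 := by
        rw [div_le_iff₀ (pow_pos (hR0.trans_le hr.1) 2)]
        have := mul_le_mul_of_nonneg_left (pow_le_pow_left₀ hR0.le hr.1 2) T0.le
        linarith
      have i3 : P x ≤ T := by nlinarith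
      rw [← hTM]
      exact mul_le_mul_of_nonneg_left i3 (by positivity)
    · refine (min_le_right _ _).trans (le_trans ?_ (hlow r x hx h1))
      nlinarith
  · rcases le_or_gt (T / 48) (R * μ ^ 3) with hβ | hβ
    · have hν2 : 0 < ν ^ 2 := lt_trans (by positivity) hc
      have hν0 : 0 < ν := lt_of_le_of_ne hν fun e => by simp [← e] at hν2
      refine (H₂ κ R μ hR hμ0 hμ1 hβ hκ hs hb (fun s => ?_) fun τ s s' => ?_).mono (by nlinarith)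
      · have e : ∀ r, ‖κ r s‖ₑ = ‖cp (km ν R μ) P r s‖ₑ := fun r => by
          rw [← ofReal_norm, hn, ofReal_norm]
        simp only [e]
        refine (rpcm_two hν0 hR0 hμ0 s).trans (ENNReal.ofReal_le_ofReal ?_)
        rw [div_le_div_iff₀ hν2 (by positivity)]
        nlinarith
      · rw [hk]
        exact kk_cp h hν hR0 hμ0 (by positivity) (fun r _ x hx h1 _ => hlow r x hx h1) τ s s'
    · refine rpcm_zero (by linarith) (by positivity) fun r s => ?_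
      rw [← norm_eq_zero, hn]
      by_cases hs : s ∈ Icc (0 : ℝ) 1
      · rw [cp_in r hs, rpcm_van hν hR0 hμ0 hc hβ, norm_zero]
      · rw [cp_out r hs, norm_zero]

theorem piece_mainR (h : Pf P P1 P2 q M) {p : ℝ} (h3 : 3 < p) (h4 : p < 4) : ∃ C : ℝ, 0 ≤ C ∧
    ∀ ν R μ : ℝ, 0 ≤ ν → 1 ≤ R → R⁻¹ ≤ μ → μ ≤ 1 →
      Bnd p (cp (km ν R μ) P) (C * R ^ (-((p - 1) / 2))) ∧
      Bnd p (fun r s => conj (cp (km ν R μ) P r s)) (C * R ^ (-((p - 1) / 2))) := by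
  obtain ⟨C, hC, H⟩ := rpcm_gen h h3 h4
  refine ⟨C, hC, fun ν R μ hν hR hμ hμ1 => ?_⟩
  have hR0 : 0 < R := by linarith
  have hμ0 : 0 < μ := (inv_pos.2 hR0).trans_le hμ
  have hk := kr_cp (kr_km (ν := ν) hR0 hμ0) h.meas
  exact ⟨H ν R μ hν hR hμ hμ1 _ hk (fun _ _ => rfl) fun _ _ _ => rfl,
    H ν R μ hν hR hμ hμ1 _ hk.conj (fun _ _ => Complex.norm_conj _) fun τ s s' => by
      rw [pcm_conj, Complex.norm_conj]⟩

end Vale.Agent.P122R
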