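import Vale.Agent.P122R.Shell

/-!
Restr: as `P122.restr_TT`, `restr_pt`, `restr_nat`, `restricted` and `P122.core` (`restr_summable`,
`interp`, `bJ_neg`), for the kernels composed with the profile.
-/

open MeasureTheory Set Real Filter
open scoped FourierTransform ENNReal ComplexConjugate Topology

namespace Vale.Agent.P122R

open Vale.Agent.P117 (Np pt rho)
open Vale.Agent.P122 hiding E3 rot

variable {P P1 P2 : ℝ → ℝ} {q M : ℝ}

theorem rrestr_TT (h : Pf P P1 P2 q M) {k : ℤ} {g : ℝ → ℂ} {E : Set ℝ} (hg : Dat g E) {A B : ℝ}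
    {z : ℝ × ℝ} (hA : A ≤ z.1) (hB : z.1 < B) :
    TT (kP k P) g z = TT (cp (kn (bJ k) A B (-1) 1) P) g z := by
  have e : (fun s => kP k P z.1 s * g s) =
      fun s => cp (kn (bJ k) A B (-1) 1) P z.1 s * g s := by
    funext s
    by_cases hs : s ∈ E
    · have h1 := hg.sub hs
      rw [cp_in _ h1, kn, if_pos ⟨hA, hB, by linarith [h.p0 s h1], h.p1 s h1⟩, kP]
    · rw [hg.van s hs, mul_zero, mul_zero]
  rw [TT, TT, e]

theorem rrestr_pt (h : Pf P P1 P2 q M) {p : ℝ} (k : ℤ) {g : ℝ → ℂ} {E : Set ℝ} (hg : Dat g E)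
    (z : ℝ × ℝ) : ENNReal.ofReal z.1 * ‖TT (kP k P) g z‖ₑ ^ p ≤
      ‖TT (cp (kn (bJ k) 0 1 (-1) 1) P) g z‖ₑ ^ p + ∑' n : ℕ, ENNReal.ofReal (2 * 2 ^ n) *
        ‖TT (cp (kn (bJ k) (2 ^ n) (2 * 2 ^ n) (-1) 1) P) g z‖ₑ ^ p := by
  rcases le_or_gt z.1 0 with h0 | h0
  · rw [ENNReal.ofReal_eq_zero.2 h0, zero_mul]
    exact zero_le
  rcases lt_or_ge z.1 1 with h1 | h1
  · refine le_add_right ?_
    rw [← rrestr_TT h hg h0.le h1]
    exact mul_le_of_le_one_left' (ENNReal.ofReal_le_one.2 h1.le)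
  · obtain ⟨n, h2, h3⟩ := exists_nat_pow_near h1 (one_lt_two (α := ℝ))
    rw [pow_succ, mul_comm] at h3
    refine le_add_left (le_trans ?_ (ENNReal.le_tsum n))
    rw [← rrestr_TT h hg h2 h3]
    exact mul_le_mul_left (ENNReal.ofReal_le_ofReal h3.le) _

theorem rrestr_nat (h : Pf P P1 P2 q M) {p : ℝ} (h3 : 3 < p) (h4 : p < 4) : ∃ C : ℝ,
    ∀ (k : ℕ) (g : ℝ → ℂ) (E : Set ℝ), Dat g E →
      ∫⁻ z, ENNReal.ofReal z.1 * ‖TT (kP k P) g z‖ₑ ^ p ≤ ENNReal.ofReal C * volume E := by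
  obtain ⟨C, hC, hs⟩ := shellR h h3 h4
  have hb : ∀ n : ℕ, 0 ≤ 2 * 2 ^ n * (C * ((n : ℝ) + 1) ^ 5 * ((2 : ℝ) ^ n) ^ (-((p - 1) / 2))) :=
    fun n => by positivity
  refine ⟨7 ^ p + ∑' n : ℕ,
    2 * 2 ^ n * (C * ((n : ℝ) + 1) ^ 5 * ((2 : ℝ) ^ n) ^ (-((p - 1) / 2))), fun k g E hg => ?_⟩
  have hm : ∀ A B : ℝ, Measurable fun z => ‖TT (cp (kn (bJ k) A B (-1) 1) P) g z‖ₑ ^ p :=
    fun A B => (measurable_TT (kr_cp (kr_knJ k A B (-1) 1) h.meas).meas hg.meas).enorm.pow_const p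
  refine (lintegral_mono fun z => rrestr_pt h k hg z).trans ?_
  rw [lintegral_add_left (hm 0 1), lintegral_tsum fun n => ((hm _ _).const_mul _).aemeasurable,
    ENNReal.ofReal_add (by positivity) (tsum_nonneg hb), add_mul,
    ENNReal.ofReal_tsum_of_nonneg hb (restr_summable h3 C), ← ENNReal.tsum_mul_right]
  refine add_le_add (piece_zeroR h h3 k g E hg) (ENNReal.tsum_le_tsum fun n => ?_)
  rw [lintegral_const_mul _ (hm _ _), ENNReal.ofReal_mul (p := 2 * 2 ^ n) (by positivity),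
    mul_assoc]
  exact mul_le_mul_right (hs k n g E hg) _

theorem restrictedR (h : Pf P P1 P2 q M) {p : ℝ} (h3 : 3 < p) (h4 : p < 4) : ∃ C : ℝ,
    ∀ (k : ℤ) (g : ℝ → ℂ) (E : Set ℝ), Dat g E →
      ∫⁻ z, ENNReal.ofReal z.1 * ‖TT (kP k P) g z‖ₑ ^ p ≤ ENNReal.ofReal C * volume E := by
  obtain ⟨C, hC⟩ := rrestr_nat h h3 h4
  refine ⟨C, fun k g E hg => ?_⟩
  obtain ⟨n, rfl | rfl⟩ := Int.eq_nat_or_neg k
  · exact hC n g E hg
  · obtain ⟨c, hc, h⟩ := bJ_neg (n : ℤ)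
    refine le_of_eq_of_le (lintegral_congr fun z => ?_) (hC n g E hg)
    have e : TT (kP (-(n : ℤ)) P) g z = c * TT (kP n P) g z := by
      rw [TT, TT, ← Vale.Agent.P117.inv_const_mul]
      simp only [kP, h, mul_assoc]
    rw [e, enorm_mul, ← ofReal_norm c, hc, ENNReal.ofReal_one, one_mul]

theorem coreR (h : Pf P P1 P2 q M) {p : ℝ} (h3 : 3 < p) : ∃ C : ℝ, 0 < C ∧
    ∀ k : ℤ, Str p (kP k P) (Icc 0 1) C := by
  have h1 : 3 < min ((p + 3) / 2) (7 / 2) := lt_min (by linarith) (by norm_num)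
  obtain ⟨C0, h0⟩ := restrictedR h h1 ((min_le_right _ _).trans_lt (by norm_num))
  obtain ⟨C, hC, h'⟩ := interp (q := min ((p + 3) / 2) (7 / 2)) (p := p) 7 C0 (by linarith)
    ((min_le_left _ _).trans_lt (by linarith)) (by linarith)
  refine ⟨C, hC, fun k g hg _ hv => h' (kP k P) _ measurable_fst.ennreal_ofReal ?_
    (fun r s => norm_bJ_le k _) (h0 k) g hg hv⟩
  exact (continuous_bJ k).measurable.comp
    (measurable_fst.mul (h.meas.comp measurable_snd).sqrt)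

end Vale.Agent.P122R
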