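import Vale.Agent.P122R.PcM
import Vale.Agent.P122R.PcE

/-!
Shell: as `P122.shell`, with `P122.shell_eq` at the point `P s ∈ [0, 1]` (`cp_in`), `shell_card`, `kr_cp`.
-/

open MeasureTheory Set Real Filter
open scoped FourierTransform ENNReal ComplexConjugate Topology

namespace Vale.Agent.P122R

open Vale.Agent.P117 (Np pt rho)
open Vale.Agent.P122 hiding E3 rot

variable {P P1 P2 : ℝ → ℝ} {q M : ℝ}

theorem shellR (h : Pf P P1 P2 q M) {p : ℝ} (h3 : 3 < p) (h4 : p < 4) : ∃ C : ℝ, 0 ≤ C ∧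
    ∀ k n : ℕ, Bnd p (cp (kn (bJ k) (2 ^ n) (2 * 2 ^ n) (-1) 1) P)
      (C * ((n : ℝ) + 1) ^ 5 * ((2 : ℝ) ^ n) ^ (-((p - 1) / 2))) := by
  obtain ⟨C0, hC0, H0⟩ := small
  obtain ⟨C1, hC1, H1⟩ := piece_mainR h h3 h4
  obtain ⟨C2, hC2, H2⟩ := piece_errR h h3 hC0
  obtain ⟨C3, hC3, H3⟩ := piece_botR h h3 hC0
  have hp : 0 < p := by linarith
  refine ⟨2 ^ p * (2 ^ p * (C0 ^ p * C1 + C0 ^ p * C1) + 2 ^ p * (C2 + C3)), by positivity,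
    fun k n => ?_⟩
  obtain ⟨α, β, hα, hβ, hS⟩ := H0 k (2 * 2 ^ n)
  have hR : (1 : ℝ) ≤ 2 ^ n := one_le_pow₀ one_le_two
  have hR0 : (0 : ℝ) < 2 ^ n := by positivity
  obtain ⟨b, hb⟩ : ∃ b : ℝ, b = ((2 : ℝ) ^ n) ^ (-((p - 1) / 2)) := ⟨_, rfl⟩
  have hb0 : 0 ≤ b := by rw [hb]; positivity
  obtain ⟨m, hm⟩ : ∃ m : ℝ, m = ((n : ℝ) + 1) ^ 5 := ⟨_, rfl⟩
  have hm1 : 1 ≤ m := by
    rw [hm]
    exact one_le_pow₀ (by linarith [Nat.cast_nonneg (α := ℝ) n])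
  have hm0 : 0 ≤ m := zero_le_one.trans hm1
  have hμ : ∀ j ∈ Finset.range (n + 1), Bnd p (cp (km k (2 ^ n) (2 ^ j)⁻¹) P) (C1 * b) ∧
      Bnd p (fun r s => conj (cp (km k (2 ^ n) (2 ^ j)⁻¹) P r s)) (C1 * b) := fun j hj => by
    rw [hb]
    refine H1 k _ _ (Nat.cast_nonneg k) hR (inv_anti₀ (by positivity)
      (pow_le_pow_right₀ one_le_two (Nat.lt_succ_iff.1 (Finset.mem_range.1 hj)))) ?_
    exact inv_le_one_of_one_le₀ (one_le_pow₀ one_le_two)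
  have k1 : ∀ j ∈ Finset.range (n + 1), Kr (cp (km k (2 ^ n) (2 ^ j)⁻¹) P) := fun j _ =>
    kr_cp (kr_km hR0 (by positivity)) h.meas
  have k2 : ∀ j ∈ Finset.range (n + 1),
      Kr fun r s => conj (cp (km k (2 ^ n) (2 ^ j)⁻¹) P r s) := fun j hj => (k1 j hj).conj
  have hσ : ∀ j : ℕ, 2 * ((2 : ℝ) ^ (j + 1))⁻¹ ≤ 1 := fun j => by
    rw [← div_eq_mul_inv, div_le_one (by positivity), pow_succ]
    linarith [one_le_pow₀ (n := j) (one_le_two (α := ℝ))]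
  have k3 : ∀ j ∈ Finset.range n, Kr (cp (kn (er k α β) (2 ^ n) (2 * 2 ^ n)
      ((((2 : ℝ) ^ (j + 1))⁻¹) ^ 2) (4 * (((2 : ℝ) ^ (j + 1))⁻¹) ^ 2)) P) := fun j _ => by
    refine kr_cp (kr_kn hS hR0.le le_rfl ?_) h.meas
    have h0 : 0 ≤ ((2 : ℝ) ^ (j + 1))⁻¹ := by positivity
    nlinarith [hσ j]
  have k4 : Kr (cp (kn (er k α β) (2 ^ n) (2 * 2 ^ n) (-1) (((2 : ℝ) ^ n) ^ 2)⁻¹) P) :=
    kr_cp (kr_kn hS hR0.le le_rfl (inv_le_one_of_one_le₀ (one_le_pow₀ hR))) h.meas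
  have c1 : ((Finset.range (n + 1)).card : ℝ) ^ (p + 1) * (C1 * b) ≤ m * (C1 * b) :=
    mul_le_mul_of_nonneg_right (hm ▸ shell_card h3 h4 le_rfl) (by positivity)
  have c2 : ((Finset.range n).card : ℝ) ^ (p + 1) * (C2 * b) ≤ m * (C2 * b) :=
    mul_le_mul_of_nonneg_right (hm ▸ shell_card h3 h4 n.le_succ) (by positivity)
  have b1 := ((Bnd.sum hp _ k1 fun j hj => (hμ j hj).1).mono c1).const_mul hp.le hα
  have b2 := ((Bnd.sum hp _ k2 fun j hj => (hμ j hj).2).mono c1).const_mul hp.le hβ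
  have b3 := (Bnd.sum (b := C2 * b) hp _ k3 fun j _ => by
    rw [hb]
    exact H2 k _ _ _ hR (by positivity) (hσ j) hS).mono c2
  have b4 : Bnd p (cp (kn (er k α β) (2 ^ n) (2 * 2 ^ n) (-1) (((2 : ℝ) ^ n) ^ 2)⁻¹) P)
      (m * (C3 * b)) := by
    refine (H3 k _ _ hR hS).mono ?_
    rw [← hb]
    exact le_mul_of_one_le_left (by positivity) hm1
  have k5 := (Kr.sum _ k1).const_mul α
  have k6 := (Kr.sum _ k2).const_mul β
  have b5 := Bnd.add hp.le k5 k6 b1 b2 (by positivity) (by positivity)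
  have b6 := Bnd.add hp.le (Kr.sum _ k3) k4 b3 b4 (by positivity) (by positivity)
  have b7 := Bnd.add hp.le (k5.add k6) ((Kr.sum _ k3).add k4) b5 b6 (by positivity)
    (by positivity)
  refine (b7.congr fun r s hs => ?_).mono (le_of_eq ?_)
  · simp only [cp_in r hs]
    exact shell_eq k n α β r ⟨h.p0 s hs, h.p1 s hs⟩
  · rw [← hb, ← hm]
    ring

end Vale.Agent.P122R
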