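import Mathlib

/-! Definitions used in the statement for surfaces of revolution (P122). -/

open MeasureTheory Real Set
open scoped RealInnerProductSpace

noncomputable section

namespace Vale.Agent.P122R

/-- Euclidean three-space. -/
abbrev E3 := EuclideanSpace ℝ (Fin 3)

/-- Rotation by the angle `θ` about the third coordinate axis. -/
def rot (θ : ℝ) (x : E3) : E3 :=
  !₂[cos θ * x 0 - sin θ * x 1, sin θ * x 0 + cos θ * x 1, x 2]

/-- The point with height `z.1` and angle `z.2` of the surface `ξ₁² + ξ₂² = P ξ₃`. -/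
def prm (P : ℝ → ℝ) (z : ℝ × ℝ) : E3 := !₂[√(P z.1) * cos z.2, √(P z.1) * sin z.2, z.1]

/-- The surface measure of the part with heights in `[a, b]`. -/
def sigR (P : ℝ → ℝ) (a b : ℝ) : Measure E3 :=
  ((volume.restrict (Icc a b ×ˢ Ioc (-π) π)).withDensity fun z : ℝ × ℝ =>
    ENNReal.ofReal √(P z.1 + deriv P z.1 ^ 2 / 4)).map (prm P)

/-- The Fourier extension operator of a measure. -/
def extR (μ : Measure E3) (f : E3 → ℂ) (x : E3) : ℂ :=
  ∫ ξ, f ξ * Complex.exp (((2 * π * ⟪x, ξ⟫ : ℝ) : ℂ) * Complex.I) ∂μ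

end Vale.Agent.P122R
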